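import Vale.Agent.P097.H505.OneType2
import Vale.Agent.P097.H6.TopR0
import Vale.Agent.P097.H877.Bd.Fat3

/-!
# P097 / block (N) : the row `H6.OneType` from (A4) (no interior limits) and NoNest (level `v`)
-/

set_option linter.all false

open Complex Metric Filter Topology Set MeasureTheory
open scoped ComplexConjugate

namespace Vale.Agent.P097.H505

open Vale.Agent.P097 Vale.Agent.P097.H6 Vale.Agent.P097.H929 Vale.Agent.P097.H85
open Vale.Agent.P097.H456.C Vale.Agent.P097.TA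

/-- a compact set of positive measure contains one all of whose portions have positive measure -/
theorem exists_thick {S : Set ℝ} (hS : IsCompact S) (h0 : volume S ≠ 0) :
    ∃ S₁ ⊆ S, IsCompact S₁ ∧ volume S₁ ≠ 0 ∧ ∀ u ∈ S₁, ∀ d > 0, volume (S₁ ∩ ball u d) ≠ 0 := by
  set μ : Measure ℝ := volume.restrict S with hμ
  have hn : volume (S \ μ.support) = 0 := by
    have h1 := Measure.measure_compl_support (μ := μ)
    rw [hμ, Measure.restrict_apply Measure.isOpen_compl_support.measurableSet, ← hμ] at h1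
    rwa [inter_comm, ← diff_eq] at h1
  refine ⟨S ∩ μ.support, inter_subset_left, hS.inter_right Measure.isClosed_support, ?_, ?_⟩
  · intro h
    apply h0
    have h1 : volume S ≤ volume (S ∩ μ.support) + volume (S \ μ.support) := measure_le_inter_add_diff _ _ _
    rw [h, hn, add_zero] at h1
    exact le_antisymm h1 zero_le
  · rintro u ⟨huS, hu⟩ d hd h
    have h1 := (Measure.mem_support_iff_forall u).1 hu _ (ball_mem_nhds u hd)
    rw [hμ, Measure.restrict_apply isOpen_ball.measurableSet] at h1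
    have h2 : volume (ball u d ∩ S) ≤ volume (S ∩ μ.support ∩ ball u d) + volume (S \ μ.support) := by
      refine (measure_mono ?_).trans (measure_union_le _ _)
      rintro z ⟨hz1, hz2⟩
      by_cases hz3 : z ∈ μ.support
      · exact Or.inl ⟨⟨hz2, hz3⟩, hz1⟩
      · exact Or.inr ⟨hz2, hz3⟩
    rw [h, hn, add_zero] at h2
    exact absurd h1 (not_lt.2 h2)

/-- the position at one real label -/
noncomputable def Tu (θ : ℂ × ℂ → ℂ) (n : ℤ) (u : ℝ) (t : ℂ) : ℂ := Th θ n (t, (u : ℂ))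

section
variable {κ Λ b : ℝ} {H Φ : ℂ → ℂ} {r e : ℝ} {α p : ℂ → ℂ → ℂ} {J F q Q : ℂ → ℂ}
  {e₁ c₀ : ℝ} {R : ℂ → ℝ} {A P θ : ℂ × ℂ → ℂ} {n : ℤ} {u : ℝ}

theorem tu_Pd {t : ℂ} (ht : |t.im| < R u) (hu : |u| < e₁) :
    (t + ((n : ℂ) - 1 / 2) * (u : ℂ), (u : ℂ)) ∈ Pd R e₁ := by
  refine ⟨?_, ?_⟩
  · have h1 : (((n : ℂ) - 1 / 2) * (u : ℂ)).im = 0 := by
      have : (((n : ℂ) - 1 / 2) * (u : ℂ)) = ((((n : ℝ) - 1 / 2) * u : ℝ) : ℂ) := by
        push_cast; ring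
      rw [this, ofReal_im]
    show |(t + ((n : ℂ) - 1 / 2) * (u : ℂ)).im| + |((u : ℂ)).im| / 2 < R u
    rw [add_im, h1, add_zero, ofReal_im, abs_zero, zero_div, add_zero]
    exact ht
  · show ‖(u : ℂ)‖ < e₁
    rwa [norm_real, Real.norm_eq_abs]

theorem tu_diff (hB : CC.Base κ Λ b H Φ r e α p J F q Q e₁ c₀ R A P θ) (hu : |u| < e₁) :
    DifferentiableOn ℂ (Tu θ n u) {t | |t.im| < R u} := by
  intro t ht
  have h1 : DifferentiableAt ℂ θ (t + ((n : ℂ) - 1 / 2) * (u : ℂ), (u : ℂ)) :=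
    (hB.pc.an _ (tu_Pd ht hu)).differentiableAt
  have h2 : DifferentiableAt ℂ (fun t : ℂ => (t + ((n : ℂ) - 1 / 2) * (u : ℂ), (u : ℂ))) t := by
    fun_prop
  exact (DifferentiableAt.comp t (f := fun t : ℂ => (t + ((n : ℂ) - 1 / 2) * (u : ℂ), (u : ℂ)))
    h1 h2).differentiableWithinAt

theorem tu_bd (hB : CC.Base κ Λ b H Φ r e α p J F q Q e₁ c₀ R A P θ) (hu : |u| < e₁) {t : ℂ}
    (ht : |t.im| < R u) : |(Tu θ n u t).im| < b :=
  hB.pc.mem _ (tu_Pd ht hu)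

/-- vertical limits exist a.e. (local Fatou theorem of helper877) -/
theorem tu_vlim (hB : CC.Base κ Λ b H Φ r e α p J F q Q e₁ c₀ R A P θ) (hu : |u| < e₁)
    (hR : 0 < R u) : ∀ᵐ x : ℝ, ∃ L : ℝ,
      Tendsto (fun η : ℝ => (Tu θ n u ((x : ℂ) + ((R u - η : ℝ) : ℂ) * I)).im) (𝓝[>] 0) (𝓝 L) := by
  set D : Set ℂ := {ζ | 0 < ζ.im ∧ ζ.im < R u} with hD
  set f : ℂ → ℂ := fun ζ => Complex.exp (I * Tu θ n u (-ζ + (R u : ℂ) * I)) with hf
  have him : ∀ ζ : ℂ, (-ζ + (R u : ℂ) * I).im = R u - ζ.im := by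
    intro ζ; simp; ring
  have hin : ∀ ζ ∈ D, |(-ζ + (R u : ℂ) * I).im| < R u := by
    intro ζ hζ
    rw [him, abs_of_nonneg (by linarith [hζ.2])]
    linarith [hζ.1]
  have hfd : DifferentiableOn ℂ f D := by
    have h1 : DifferentiableOn ℂ (fun ζ : ℂ => Tu θ n u (-ζ + (R u : ℂ) * I)) D :=
      (tu_diff hB hu).comp (by fun_prop) (fun ζ hζ => hin ζ hζ)
    exact (h1.const_mul I).cexp
  have hnorm : ∀ ζ, ‖f ζ‖ = Real.exp (-(Tu θ n u (-ζ + (R u : ℂ) * I)).im) := by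
    intro ζ
    simp [hf, Complex.norm_exp]
  have hfat := H877.Bd.fatloc hfd (E := univ) (fun x _ => by
    refine ⟨1, one_pos, R u, hR, Real.exp b, ?_, ?_⟩
    · intro z hz
      exact ⟨H877.Bd.cone_im_pos one_pos hz, hz.2⟩
    · intro z hz
      rw [hnorm]
      apply Real.exp_le_exp.2
      have := (abs_lt.1 (tu_bd (n := n) hB hu (hin z ⟨H877.Bd.cone_im_pos one_pos hz, hz.2⟩))).1
      linarith)
  have hneg : ∀ᵐ x : ℝ, (-x) ∈ (univ : Set ℝ) → ∃ L : ℂ, ∀ k' > 0, ∃ h' > 0,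
      H877.Bd.cone k' h' (-x) ⊆ D ∧ Tendsto f (𝓝[H877.Bd.cone k' h' (-x)] ((-x : ℝ) : ℂ)) (𝓝 L) :=
    (Measure.measurePreserving_neg (volume : Measure ℝ)).quasiMeasurePreserving.ae hfat
  filter_upwards [hneg] with x hx
  obtain ⟨L, hL⟩ := hx (mem_univ _)
  obtain ⟨h', h0, hsub, hlim⟩ := hL 1 one_pos
  have hpath : Tendsto (fun η : ℝ => ((-x : ℝ) : ℂ) + (η : ℂ) * I) (𝓝[>] 0)
      (𝓝[H877.Bd.cone 1 h' (-x)] ((-x : ℝ) : ℂ)) := by
    refine tendsto_nhdsWithin_iff.2 ⟨?_, ?_⟩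
    · have : Continuous (fun η : ℝ => ((-x : ℝ) : ℂ) + (η : ℂ) * I) := by fun_prop
      have h1 := (this.tendsto 0).mono_left (nhdsWithin_le_nhds (s := Ioi (0 : ℝ)))
      simpa using h1
    · have h1 : ∀ᶠ η : ℝ in 𝓝[>] 0, η < h' := mem_nhdsWithin_of_mem_nhds (Iio_mem_nhds h0)
      filter_upwards [h1, self_mem_nhdsWithin] with η h2 h3
      have h3' : (0 : ℝ) < η := h3
      refine ⟨?_, ?_⟩
      · simpa using h3'
      · simpa using h2
  have hc := (hlim.comp hpath).norm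
  have hform : ∀ η : ℝ, ‖(f ∘ fun η : ℝ => ((-x : ℝ) : ℂ) + (η : ℂ) * I) η‖
      = Real.exp (-(Tu θ n u ((x : ℂ) + ((R u - η : ℝ) : ℂ) * I)).im) := by
    intro η
    simp only [Function.comp]
    rw [hnorm]
    congr 3
    push_cast
    ring_nf
  have hc2 : Tendsto (fun η : ℝ => Real.exp (-(Tu θ n u ((x : ℂ) + ((R u - η : ℝ) : ℂ) * I)).im))
      (𝓝[>] 0) (𝓝 ‖L‖) := hc.congr hform
  have hLpos : 0 < ‖L‖ := by
    refine lt_of_lt_of_le (Real.exp_pos (-b)) (ge_of_tendsto hc2 ?_)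
    have h1 : ∀ᶠ η : ℝ in 𝓝[>] 0, η < R u := mem_nhdsWithin_of_mem_nhds (Iio_mem_nhds hR)
    filter_upwards [h1, self_mem_nhdsWithin] with η h2 h3
    have h3' : (0 : ℝ) < η := h3
    apply Real.exp_le_exp.2
    have h4 : |((x : ℂ) + ((R u - η : ℝ) : ℂ) * I).im| < R u := by
      have : ((x : ℂ) + ((R u - η : ℝ) : ℂ) * I).im = R u - η := by simp
      rw [this, abs_of_nonneg (by linarith)]
      linarith
    have := (abs_lt.1 (tu_bd (n := n) hB hu h4)).2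
    linarith
  refine ⟨-Real.log ‖L‖, ?_⟩
  have h5 := ((Real.continuousAt_log hLpos.ne').tendsto.comp hc2).neg
  refine h5.congr fun η => ?_
  simp only [Function.comp, Real.log_exp, neg_neg]

end

/-- **(A4)** in the form used here: at a.e. label, no interior vertical limit at a.e. column -/
def WallsAe : Prop := ∀ {κ Λ b : ℝ} {H Φ : ℂ → ℂ} {r e : ℝ} {α p : ℂ → ℂ → ℂ} {J F q Q : ℂ → ℂ}
  {e₁ c₀ : ℝ} {R : ℂ → ℝ} {A P θ : ℂ × ℂ → ℂ}, 0 < e₁ → 0 < c₀ →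
  CC.Base κ Λ b H Φ r e α p J F q Q e₁ c₀ R A P θ →
  ∀ {n : ℤ} {ε b₀ m : ℝ} {Ψ : ℂ → ℂ} {S : Set ℝ} {Pt : ℝ → ℂ} {c k : ℝ → ℝ} {y₁ y₂ s s' : ℝ},
    GW R A P e₁ n ε b₀ m Ψ S Pt c k y₁ y₂ s s' →
    ∀ᵐ u : ℝ, u ∈ S → ∀ᵐ x : ℝ, x ∈ Ioo y₁ y₂ → ∀ L : ℝ,
      Tendsto (fun η : ℝ => (Tu θ n u ((x : ℂ) + ((R u - η : ℝ) : ℂ) * I)).im) (𝓝[>] 0) (𝓝 L) →
      ¬ |L| < b

/-- **NoNest** : near a point of the thin layer there are no nested points of some level `v` -/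
def NoNestV : Prop := ∀ {κ Λ b : ℝ} {H Φ : ℂ → ℂ} {r e : ℝ} {α p : ℂ → ℂ → ℂ} {J F q Q : ℂ → ℂ}
  {e₁ c₀ : ℝ} {R : ℂ → ℝ} {A P θ : ℂ × ℂ → ℂ}, 0 < e₁ → 0 < c₀ →
  CC.Base κ Λ b H Φ r e α p J F q Q e₁ c₀ R A P θ →
  ∀ {n : ℤ} {ε b₀ m : ℝ} {Ψ : ℂ → ℂ} {S : Set ℝ} {Pt : ℝ → ℂ} {c k : ℝ → ℝ} {y₁ y₂ s s' : ℝ},
    GW R A P e₁ n ε b₀ m Ψ S Pt c k y₁ y₂ s s' →
    (∀ u ∈ S, ∀ d > 0, volume (S ∩ ball u d) ≠ 0) →
    ∀ {y₀ u₀ σ : ℝ}, y₁ < y₀ → y₀ < y₂ → σ ≤ s' →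
      Lay (MM R A P e₁ ε b₀ n) (MM R A P e₁ ε b₀ (n - 1)) b₀ S Pt c y₀ u₀ σ s →
      ∃ v : ℝ, |v| < b ∧ ∃ d > 0, ∀ᵐ u : ℝ, u ∈ S → |u - u₀| < d → ∀ y : ℝ, |y - y₀| < d →
        ¬ Nest (Tu θ n u) (R u) b y v

open Classical in
/-- **row ONE TYPE** (weak form of helper6) from (A4) and NoNest -/
theorem oneTypeL_of (hW : WallsAe) (hN : NoNestV) : OneTypeL := by
  intro κ Λ b H Φ r e α p J F q Q e₁ c₀ R A P θ he hc hB n ε b₀ m Ψ S Pt c k y₁ y₂ s s' G₀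
  obtain ⟨S₁, hS1, hS1c, hS10, hthick⟩ := exists_thick G₀.Sc G₀.S0
  have G : GW R A P e₁ n ε b₀ m Ψ S₁ Pt c k y₁ y₂ s s' :=
    G₀.mono hS1 hS1c hS10 le_rfl le_rfl G₀.hy
  obtain ⟨y₀, u₀, σ, hy1, hy2, hσ, hL⟩ := G.exists_lay hB
  obtain ⟨v, hv, d, d0, hnn⟩ := hN he hc hB G hthick hy1 hy2 hσ hL
  have hWu := hW he hc hB G
  -- the interval
  set r' : ℝ := min (d / 2) (min ((y₀ - y₁) / 2) ((y₂ - y₀) / 2)) with hr'
  have r0 : 0 < r' := lt_min (by linarith) (lt_min (by linarith) (by linarith))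
  have r1 : r' < d := lt_of_le_of_lt (min_le_left _ _) (by linarith)
  have r2 : r' ≤ (y₀ - y₁) / 2 := (min_le_right _ _).trans (min_le_left _ _)
  have r3 : r' ≤ (y₂ - y₀) / 2 := (min_le_right _ _).trans (min_le_right _ _)
  -- the labels
  set T : Set ℝ := S₁ ∩ ball u₀ d with hT
  have hT0 : volume T ≠ 0 := hthick u₀ hL.u0 d d0
  have hgood : ∀ᵐ u : ℝ, u ∈ T → TypeAt b R θ n u y₀ r' b ∨ TypeAt b R θ n u y₀ r' (-b) := by
    filter_upwards [hWu, hnn] with u hu1 hu2 huT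
    have huS : u ∈ S₁ := huT.1
    have hud : |u - u₀| < d := by
      have := huT.2
      rwa [mem_ball, Real.dist_eq] at this
    have hue : |u| < e₁ := G.Se u huS
    have hRu : 0 < R u := G.b00.trans (G.bR u huS)
    have hsub : Win (y₀ - r') (y₀ + r') (R u) (R u) ⊆ {t : ℂ | |t.im| < R u} := by
      rintro t ⟨-, -, h3, h4⟩
      show |t.im| < R u
      rw [sub_self] at h3
      rw [abs_of_pos h3]
      exact h4
    have hvl := tu_vlim (n := n) hB hue hRu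
    set Fs : ℝ → ℝ := fun x => if h : ∃ L : ℝ,
      Tendsto (fun η : ℝ => (Tu θ n u ((x : ℂ) + ((R u - η : ℝ) : ℂ) * I)).im) (𝓝[>] 0) (𝓝 L)
      then h.choose else 0 with hFs
    have hFl : ∀ᵐ x : ℝ,
        Tendsto (fun η : ℝ => (Tu θ n u ((x : ℂ) + ((R u - η : ℝ) : ℂ) * I)).im) (𝓝[>] 0)
          (𝓝 (Fs x)) := by
      filter_upwards [hvl] with x hx
      simp only [hFs]
      rw [dif_pos hx]
      exact hx.choose_spec
    have hb : ∀ z ∈ Win (y₀ - r') (y₀ + r') (R u) (R u), |(Tu θ n u z).im| ≤ b := fun z hz =>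
      (tu_bd hB hue (hsub hz)).le
    have hd : DifferentiableOn ℂ (Tu θ n u) (Win (y₀ - r') (y₀ + r') (R u) (R u)) :=
      (tu_diff hB hue).mono hsub
    have hF : ∀ᵐ x : ℝ, x ∈ Ioo (y₀ - r') (y₀ + r') →
        Tendsto (fun η : ℝ => (Tu θ n u ((x : ℂ) + ((R u - η : ℝ) : ℂ) * I)).im) (𝓝[>] 0)
          (𝓝 (Fs x)) := by
      filter_upwards [hFl] with x hx _
      exact hx
    have hbl := bd_lim (L := R u) hRu hb hF
    have hw : ∀ᵐ x : ℝ, x ∈ Ioo (y₀ - r') (y₀ + r') → Fs x = b ∨ Fs x = -b := by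
      filter_upwards [hu1 huS, hFl, hbl] with x h1 h2 h3 hx
      have h4 := h1 ⟨by linarith [hx.1], by linarith [hx.2]⟩ _ h2
      have h5 := h3 hx
      have h6 : |Fs x| = b := le_antisymm h5 (not_lt.1 h4)
      exact eq_or_eq_neg_of_abs_eq h6
    have := one_type_walls (by linarith) hRu hd hb hF hw hv (fun y hy => by
      refine hu2 huS hud y ?_
      rw [abs_lt]
      constructor <;> linarith [hy.1, hy.2])
    rcases this with h | h
    · left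
      filter_upwards [h, hFl] with x h1 h2 hx
      rw [← h1 (by rw [abs_lt] at hx; constructor <;> linarith [hx.1, hx.2])]
      exact h2
    · right
      filter_upwards [h, hFl] with x h1 h2 hx
      rw [← h1 (by rw [abs_lt] at hx; constructor <;> linarith [hx.1, hx.2])]
      exact h2
  refine ⟨{u ∈ T | TypeAt b R θ n u y₀ r' b ∨ TypeAt b R θ n u y₀ r' (-b)}, y₀, r',
    fun u hu => hS1 hu.1.1, ?_, r0, by linarith, by linarith, fun u hu => hu.2⟩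
  intro h0
  apply hT0
  refine measure_mono_null ?_ (measure_union_null (ae_iff.1 hgood) h0)
  intro u hu
  by_cases h1 : TypeAt b R θ n u y₀ r' b ∨ TypeAt b R θ n u y₀ r' (-b)
  · exact Or.inr ⟨hu, h1⟩
  · left
    rw [mem_setOf_eq, Classical.not_imp]
    exact ⟨hu, h1⟩

end Vale.Agent.P097.H505
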