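import Vale.Agent.P097.H505.Mid

/-!
# P097 / (A5): no nested points ==> one wall type (Lemma N)

`Nest θ t0 H y v`: at EVERY small scale `s` the level `v` is attained up to `ε` by `Im θ` on the
horizontal segment `|x - y| ≤ 100 (H/ε)^2 s` at depth `s`.  If no point of `(a,b)` is nested for any
level `|v| < H`, the boundary values are a.e. `H` or a.e. `- H`.
-/

set_option linter.all false

open Complex Metric Filter Topology Set MeasureTheory

namespace Vale.Agent.P097.H505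

/-- nested point of level `v` -/
def Nest (θ : ℂ → ℂ) (t0 H y v : ℝ) : Prop :=
  ∀ ε : ℝ, 0 < ε → ε ≤ H → ∃ s₀ > 0, ∀ s ∈ Ioo 0 s₀,
    ∃ x, |x - y| ≤ 100 * (H / ε) ^ 2 * s ∧
      |(θ ((x : ℂ) + ((t0 - s : ℝ) : ℂ) * I)).im - v| ≤ ε

variable {θ : ℂ → ℂ} {a b t0 L H v : ℝ} {Fs : ℝ → ℝ}

/-- boundary value a.e. equal to `v` : every point is nested of level `v` -/
theorem nest_const (L0 : 0 < L) (hd : DifferentiableOn ℂ θ (Win a b t0 L))
    (hb : ∀ z ∈ Win a b t0 L, |(θ z).im| ≤ H) (hv : |v| ≤ H)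
    (hF : ∀ᵐ x, x ∈ Ioo a b → Tendsto (fun η : ℝ => (θ ((x : ℂ) + ((t0 - η : ℝ) : ℂ) * I)).im)
      (𝓝[>] 0) (𝓝 (Fs x)))
    (hc : ∀ᵐ x, x ∈ Ioo a b → Fs x = v) {y : ℝ} (hy : y ∈ Ioo a b) : Nest θ t0 H y v := by
  intro ε e0 he
  have H0 : 0 < H := e0.trans_le he
  set R : ℝ := 100 * (H / ε) ^ 2 with hR
  have R0 : 0 < R := by positivity
  set δ : ℝ := min ((y - a) / 2) ((b - y) / 2) with hδ
  have δ0 : 0 < δ := lt_min (by linarith [hy.1]) (by linarith [hy.2])
  have d1 : a < y - δ := by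
    have : δ ≤ (y - a) / 2 := min_le_left _ _
    linarith [hy.1]
  have d2 : y + δ < b := by
    have : δ ≤ (b - y) / 2 := min_le_right _ _
    linarith [hy.2]
  have hab : a < b := hy.1.trans hy.2
  have hiF : IntervalIntegrable Fs volume a b := by
    rw [intervalIntegrable_iff_integrableOn_Ioo_of_le hab.le]
    exact int_lim L0 hd hb hF
  have hiδ : IntervalIntegrable Fs volume (y - δ) (y + δ) := by
    refine hiF.mono_set ?_
    rw [uIcc_of_le hab.le]
    exact uIcc_subset_Icc ⟨by linarith, by linarith⟩ ⟨by linarith, by linarith⟩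
  refine ⟨min (δ / (2 * R)) (L / R), lt_min (by positivity) (by positivity), fun s hs => ?_⟩
  have s1 : s < δ / (2 * R) := hs.2.trans_le (min_le_left _ _)
  have s2 : s < L / R := hs.2.trans_le (min_le_right _ _)
  rw [lt_div_iff₀ (by positivity)] at s1 s2
  refine level_max hd hb hv e0 he d1 d2 hiδ ?_ (L1_lim L0 hd hb hF d1 (by linarith) d2) ?_ hs.1
    (by rw [← hR]; linarith) (by rw [← hR]; linarith)
  · filter_upwards [bd_lim L0 hb hF] with x hx hx2
    exact hx ⟨by linarith [hx2.1], by linarith [hx2.2]⟩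
  · intro x hx
    rw [abs_le] at hx
    refine le_of_eq ?_
    have : ∫ u in y..x, (Fs u - v) = ∫ u in y..x, (0 : ℝ) := by
      refine intervalIntegral.integral_congr_ae ?_
      filter_upwards [hc] with u hu hu2
      have hu3 : u ∈ Ioo a b := by
        have : uIoc y x ⊆ Icc (y - δ) (y + δ) :=
          uIoc_subset_uIcc.trans (uIcc_subset_Icc ⟨by linarith, by linarith⟩
            ⟨by linarith, by linarith⟩)
        have := this hu2
        exact ⟨by linarith [this.1], by linarith [this.2]⟩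
      rw [hu hu3, sub_self]
    rw [this]
    simp

/-- **Lemma N**: no nested point ==> one wall type a.e. -/
theorem one_type (hab : a < b) (L0 : 0 < L) (H0 : 0 < H)
    (hd : DifferentiableOn ℂ θ (Win a b t0 L)) (hb : ∀ z ∈ Win a b t0 L, |(θ z).im| ≤ H)
    (hF : ∀ᵐ x, x ∈ Ioo a b → Tendsto (fun η : ℝ => (θ ((x : ℂ) + ((t0 - η : ℝ) : ℂ) * I)).im)
      (𝓝[>] 0) (𝓝 (Fs x)))
    (hN : ∀ y ∈ Ioo a b, ∀ v, |v| < H → ¬ Nest θ t0 H y v) :
    (∀ᵐ x, x ∈ Ioo a b → Fs x = H) ∨ ∀ᵐ x, x ∈ Ioo a b → Fs x = -H := by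
  have hbl := bd_lim L0 hb hF
  have hdich : ∀ v, |v| < H → (∀ᵐ x, x ∈ Ioo a b → Fs x ≤ v) ∨ ∀ᵐ x, x ∈ Ioo a b → v ≤ Fs x := by
    intro v hv
    by_contra hcon
    rw [not_or] at hcon
    obtain ⟨y, hy, hy2⟩ := mid hab L0 hd hb hv.le hF hcon.1 hcon.2
    exact hN y hy v hv hy2
  -- a.e. real number statements from rational ones
  by_cases hup : ∃ v, |v| < H ∧ ∀ᵐ x, x ∈ Ioo a b → Fs x ≤ v
  swap
  · left
    have h1 : ∀ᵐ x, ∀ q : ℚ, |(q : ℝ)| < H → x ∈ Ioo a b → (q : ℝ) ≤ Fs x := by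
      rw [ae_all_iff]
      intro q
      by_cases hq : |(q : ℝ)| < H
      · rcases hdich q hq with h | h
        · exact absurd ⟨(q : ℝ), hq, h⟩ hup
        · filter_upwards [h] with x hx _ hx2
          exact hx hx2
      · exact Eventually.of_forall fun x h => absurd h hq
    filter_upwards [h1, hbl] with x hx hx2 hx3
    refine le_antisymm ((le_abs_self _).trans (hx2 hx3)) ?_
    by_contra hlt
    push Not at hlt
    obtain ⟨q, q1, q2⟩ := exists_rat_btwn (max_lt hlt (show -H < H by linarith) : max (Fs x) (-H) < H)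
    have q3 : -H < q := (le_max_right _ _).trans_lt q1
    have q4 : Fs x < q := (le_max_left _ _).trans_lt q1
    have := hx q (abs_lt.2 ⟨q3, q2⟩) hx3
    linarith
  by_cases hlo : ∃ v, |v| < H ∧ ∀ᵐ x, x ∈ Ioo a b → v ≤ Fs x
  swap
  · right
    have h1 : ∀ᵐ x, ∀ q : ℚ, |(q : ℝ)| < H → x ∈ Ioo a b → Fs x ≤ (q : ℝ) := by
      rw [ae_all_iff]
      intro q
      by_cases hq : |(q : ℝ)| < H
      · rcases hdich q hq with h | h
        · filter_upwards [h] with x hx _ hx2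
          exact hx hx2
        · exact absurd ⟨(q : ℝ), hq, h⟩ hlo
      · exact Eventually.of_forall fun x h => absurd h hq
    filter_upwards [h1, hbl] with x hx hx2 hx3
    refine le_antisymm ?_ (abs_le.1 (hx2 hx3)).1
    by_contra hlt
    push Not at hlt
    obtain ⟨q, q1, q2⟩ := exists_rat_btwn (lt_min hlt (show -H < H by linarith) : -H < min (Fs x) H)
    have q3 : (q : ℝ) < H := q2.trans_le (min_le_right _ _)
    have q4 : (q : ℝ) < Fs x := q2.trans_le (min_le_left _ _)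
    have := hx q (abs_lt.2 ⟨q1, q3⟩) hx3
    linarith
  -- both exist: the boundary value is a.e. a constant `c`, interior
  exfalso
  obtain ⟨vu, hvu, hvu2⟩ := hup
  obtain ⟨vl, hvl, hvl2⟩ := hlo
  set W : Set ℝ := {v | |v| < H ∧ ∀ᵐ x, x ∈ Ioo a b → Fs x ≤ v} with hW
  have Wne : W.Nonempty := ⟨vu, hvu, hvu2⟩
  have Wbd : BddBelow W := ⟨-H, fun v hv => (abs_lt.1 hv.1).1.le⟩
  set c : ℝ := sInf W with hc
  have hpos : ∃ᶠ x in ae volume, x ∈ Ioo a b := by
    rw [frequently_ae_iff]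
    have : {x | x ∈ Ioo a b} = Ioo a b := rfl
    rw [this, Real.volume_Ioo]
    simpa using hab
  have hlc : vl ≤ c := by
    refine le_csInf Wne fun v hv => ?_
    obtain ⟨x, hx1, hx2, hx3⟩ := (hpos.and_eventually (hvl2.and hv.2)).exists
    exact (hx2 hx1).trans (hx3 hx1)
  have hcu : c ≤ vu := csInf_le Wbd ⟨hvu, hvu2⟩
  have hcH : |c| < H := abs_lt.2 ⟨(abs_lt.1 hvl).1.trans_le hlc, hcu.trans_lt (abs_lt.1 hvu).2⟩
  have hce : ∀ᵐ x, x ∈ Ioo a b → Fs x = c := by
    have e1 : ∀ᵐ x, ∀ q : ℚ, c < (q : ℝ) → |(q : ℝ)| < H → x ∈ Ioo a b → Fs x ≤ (q : ℝ) := by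
      rw [ae_all_iff]
      intro q
      by_cases hq : c < (q : ℝ)
      · obtain ⟨v, hv, hv2⟩ := exists_lt_of_csInf_lt Wne hq
        filter_upwards [hv.2] with x hx _ _ hx2
        exact (hx hx2).trans hv2.le
      · exact Eventually.of_forall fun x h => absurd h hq
    have e2 : ∀ᵐ x, ∀ q : ℚ, (q : ℝ) < c → |(q : ℝ)| < H → x ∈ Ioo a b → (q : ℝ) ≤ Fs x := by
      rw [ae_all_iff]
      intro q
      by_cases hq : (q : ℝ) < c ∧ |(q : ℝ)| < H
      · rcases hdich q hq.2 with h | h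
        · exact absurd (csInf_le Wbd ⟨hq.2, h⟩) (not_le.2 hq.1)
        · filter_upwards [h] with x hx _ _ hx2
          exact hx hx2
      · exact Eventually.of_forall fun x h1 h2 => absurd ⟨h1, h2⟩ hq
    filter_upwards [e1, e2] with x h1 h2 hx
    refine le_antisymm ?_ ?_
    · by_contra hlt
      push Not at hlt
      obtain ⟨q, q1, q2⟩ := exists_rat_btwn (lt_min hlt (abs_lt.1 hcH).2)
      have q3 : (q : ℝ) < H := q2.trans_le (min_le_right _ _)
      have q4 : (q : ℝ) < Fs x := q2.trans_le (min_le_left _ _)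
      have := h1 q q1 (abs_lt.2 ⟨(abs_lt.1 hcH).1.trans q1, q3⟩) hx
      linarith
    · by_contra hlt
      push Not at hlt
      obtain ⟨q, q1, q2⟩ := exists_rat_btwn (max_lt hlt (abs_lt.1 hcH).1)
      have q3 : -H < (q : ℝ) := (le_max_right _ _).trans_lt q1
      have q4 : Fs x < (q : ℝ) := (le_max_left _ _).trans_lt q1
      have := h2 q q2 (abs_lt.2 ⟨q3, q2.trans (abs_lt.1 hcH).2⟩) hx
      linarith
  have hm : (a + b) / 2 ∈ Ioo a b := ⟨by linarith, by linarith⟩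
  exact hN _ hm c hcH (nest_const L0 hd hb hcH.le hF hce hm)

end Vale.Agent.P097.H505
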