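import Mathlib

/-!
# P097 / (A5) row MID: all-scale transition points with a prescribed level

`F = Im θ` bounded harmonic on a rectangle under the edge `Im = t0`, boundary values `Fs` (vertical
limits a.e.).  At a local extremum `y` of the primitive of `Fs - v` the horizontal segment of
length `R s` at depth `s` under `y` contains, for EVERY small `s`, a point with `|F - v| ≤ ε`.
Elementary: maximum principle with an explicit quadratic majorant.
-/

set_option linter.all false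

open Complex Metric Filter Topology Set MeasureTheory
open scoped ComplexConjugate

namespace Vale.Agent.P097.H505

/-- the explicit majorant: `f` on a rectangle, `Im f ≤ A |t| + κ` on the upper side -/
theorem core {f : ℂ → ℂ} {U : Set ℂ} (hU : IsOpen U) (hf : DifferentiableOn ℂ f U) {S A κ s : ℝ}
    (S0 : 0 < S) (A0 : 0 ≤ A) (κ0 : 0 ≤ κ) (s0 : 0 < s) (hs : 4 * s ≤ S)
    (hK : ∀ w : ℂ, |w.re| ≤ S → -S ≤ w.im → w.im ≤ 0 → w ∈ U)
    (h1 : ∀ t : ℝ, |t| ≤ S → (f (t : ℂ)).im ≤ A * |t| + κ)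
    (h2 : ∀ w : ℂ, |w.re| ≤ S → -S ≤ w.im → w.im ≤ 0 → (f w).im ≤ A * S) :
    (f (-(s : ℂ) * I)).im ≤ A * (Real.sqrt (S * s) + s) + κ := by
  set τ : ℝ := Real.sqrt (S * s) with hτ
  have Ss : 0 < S * s := mul_pos S0 s0
  have τ0 : 0 < τ := Real.sqrt_pos.2 Ss
  have τ2 : τ ^ 2 = S * s := Real.sq_sqrt Ss.le
  have τS : 2 * τ ≤ S := by
    have : (2 * τ) ^ 2 ≤ S ^ 2 := by nlinarith
    exact (pow_le_pow_iff_left₀ (by positivity) S0.le two_ne_zero).1 this
  set B : ℝ := 1 + S / (2 * τ) with hB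
  set N : ℂ → ℂ := fun w => A * (I * w ^ 2 / (2 * τ) + I * τ / 2 - B * w) + I * κ with hN
  have hNim : ∀ w : ℂ, (N w).im = A * ((w.re ^ 2 - w.im ^ 2) / (2 * τ) + τ / 2 - B * w.im) + κ := by
    intro w
    simp only [hN]
    have e1 : I * w ^ 2 / (2 * (τ : ℂ)) = ((1 / (2 * τ) : ℝ) : ℂ) * (I * w ^ 2) := by
      push_cast; ring
    have e2 : I * (τ : ℂ) / 2 = ((τ / 2 : ℝ) : ℂ) * I := by push_cast; ring
    rw [e1, e2]
    have e3 : (I * w ^ 2).im = w.re ^ 2 - w.im ^ 2 := by
      simp [pow_two]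
    simp only [Complex.add_im, Complex.re_ofReal_mul, Complex.im_ofReal_mul, Complex.sub_im, e3,
      Complex.I_im, Complex.mul_im, Complex.I_re, Complex.ofReal_re, Complex.ofReal_im]
    ring
  have hNd : Differentiable ℂ N := by
    simp only [hN]; fun_prop
  set g : ℂ → ℂ := fun w => Complex.exp (-I * (f w - N w)) with hg
  have hgn : ∀ w, ‖g w‖ = Real.exp ((f w).im - (N w).im) := by
    intro w
    simp only [hg, Complex.norm_exp]
    congr 1
    simp
  set V : Set ℂ := Ioo (-S) S ×ℂ Ioo (-S) 0 with hV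
  have hcl : closure V = Icc (-S) S ×ℂ Icc (-S) 0 := by
    rw [hV, closure_reProdIm, closure_Ioo (by linarith), closure_Ioo (by linarith)]
  have hVU : closure V ⊆ U := by
    rw [hcl]
    intro w hw
    rw [mem_reProdIm] at hw
    exact hK w (abs_le.2 ⟨hw.1.1, hw.1.2⟩) hw.2.1 hw.2.2
  have hVo : IsOpen V := isOpen_Ioo.reProdIm isOpen_Ioo
  have hVb : Bornology.IsBounded V := (Metric.isBounded_Ioo _ _).reProdIm (Metric.isBounded_Ioo _ _)
  have hgd : DiffContOnCl ℂ g V := by
    have : DifferentiableOn ℂ g (closure V) := by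
      simp only [hg]
      exact ((((hf.mono hVU).sub hNd.differentiableOn).const_mul (-I))).cexp
    exact this.diffContOnCl
  have key : ‖g (-(s : ℂ) * I)‖ ≤ 1 := by
    refine Complex.norm_le_of_forall_mem_frontier_norm_le hVb hgd ?_ ?_
    · intro w hw
      rw [hgn, Real.exp_le_one_iff, sub_nonpos, hNim]
      have hwc : w ∈ closure V := frontier_subset_closure hw
      have hwn : w ∉ V := by
        rw [hVo.frontier_eq] at hw
        exact hw.2
      rw [hcl, mem_reProdIm] at hwc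
      obtain ⟨⟨a1, a2⟩, a3, a4⟩ := hwc
      have hre : |w.re| ≤ S := abs_le.2 ⟨a1, a2⟩
      have hq : w.re ^ 2 ≤ S ^ 2 := by
        rw [← sq_abs]; exact pow_le_pow_left₀ (abs_nonneg _) hre 2
      have hf2 := h2 w hre a3 a4
      by_cases c1 : w.im = 0
      · have hw0 : w = (w.re : ℂ) := by
          apply Complex.ext <;> simp [c1]
        have hb := h1 w.re hre
        rw [← hw0] at hb
        refine hb.trans ?_
        rw [c1]
        have : |w.re| ≤ (w.re ^ 2 - 0 ^ 2) / (2 * τ) + τ / 2 - B * 0 := by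
          have h3 : 0 ≤ (|w.re| - τ) ^ 2 := sq_nonneg _
          have h4 : (w.re ^ 2 - 0 ^ 2) / (2 * τ) + τ / 2 - B * 0 - |w.re|
              = (|w.re| - τ) ^ 2 / (2 * τ) := by
            field_simp
            rw [← sq_abs w.re]
            ring
          have h5 : 0 ≤ (|w.re| - τ) ^ 2 / (2 * τ) := by positivity
          linarith
        have := mul_le_mul_of_nonneg_left this A0
        linarith
      · have him : w.im < 0 := lt_of_le_of_ne a4 c1
        refine hf2.trans ?_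
        have main : S ≤ (w.re ^ 2 - w.im ^ 2) / (2 * τ) + τ / 2 - B * w.im := by
          have hz : w.im = -S ∨ |w.re| = S := by
            by_contra hcon
            push Not at hcon
            apply hwn
            rw [hV, mem_reProdIm]
            have b1 : |w.re| < S := lt_of_le_of_ne hre hcon.2
            rw [abs_lt] at b1
            exact ⟨⟨b1.1, b1.2⟩, lt_of_le_of_ne a3 (Ne.symm hcon.1), him⟩
          have hS2 : S ≤ S ^ 2 / (2 * τ) := by
            rw [le_div_iff₀ (by positivity)]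
            nlinarith
          have hexp : (w.re ^ 2 - w.im ^ 2) / (2 * τ) + τ / 2 - B * w.im
              = (w.re ^ 2 - w.im ^ 2 - S * w.im) / (2 * τ) + τ / 2 - w.im := by
            rw [hB]; field_simp; ring
          rw [hexp]
          rcases hz with hz | hz
          · rw [hz]
            have : 0 ≤ (w.re ^ 2 - (-S) ^ 2 - S * (-S)) / (2 * τ) := by
              apply div_nonneg _ (by positivity)
              nlinarith [sq_nonneg w.re]
            linarith
          · have hq' : w.re ^ 2 = S ^ 2 := by rw [← sq_abs, hz]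
            have h6 : S ^ 2 / (2 * τ) ≤ (w.re ^ 2 - w.im ^ 2 - S * w.im) / (2 * τ) := by
              apply div_le_div_of_nonneg_right _ (by positivity)
              rw [hq']
              nlinarith
            linarith
        have := mul_le_mul_of_nonneg_left main A0
        linarith
    · rw [hcl, mem_reProdIm]
      simp only [Complex.mul_re, Complex.mul_im, Complex.neg_re, Complex.neg_im, Complex.ofReal_re,
        Complex.ofReal_im, Complex.I_re, Complex.I_im, mem_Icc]
      refine ⟨⟨by linarith, by linarith⟩, by linarith, by linarith⟩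
  rw [hgn, Real.exp_le_one_iff, sub_nonpos, hNim] at key
  refine key.trans ?_
  simp only [Complex.mul_re, Complex.mul_im, Complex.neg_re, Complex.neg_im, Complex.ofReal_re,
        Complex.ofReal_im, Complex.I_re, Complex.I_im]
  have h7 : ((-s * 0 - -0 * 1) ^ 2 - (-s * 1 + -0 * 0) ^ 2) / (2 * τ) + τ / 2
      - B * (-s * 1 + -0 * 0) ≤ τ + s := by
    have h8 : S * s / (2 * τ) = τ / 2 := by
      rw [← τ2]; field_simp
    have h9 : 0 ≤ s ^ 2 / (2 * τ) := by positivity
    have : ((-s * 0 - -0 * 1) ^ 2 - (-s * 1 + -0 * 0) ^ 2) / (2 * τ) + τ / 2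
      - B * (-s * 1 + -0 * 0) = - (s ^ 2 / (2 * τ)) + τ / 2 + s + S * s / (2 * τ) := by
      rw [hB]; field_simp; ring
    rw [this, h8]
    linarith
  have := mul_le_mul_of_nonneg_left h7 A0
  linarith


/-- holomorphic functions have primitives on convex open sets
(proof of `H202.prim_convex`, helper202, copied to stay over Mathlib only) -/
theorem prim_convex {U : Set ℂ} (hU : IsOpen U) (hc : Convex ℝ U) {f : ℂ → ℂ}
    (hf : DifferentiableOn ℂ f U) : ∃ g : ℂ → ℂ, ∀ z ∈ U, HasDerivAt g (f z) z := by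
  rcases U.eq_empty_or_nonempty with rfl | ⟨c, hcU⟩
  · exact ⟨0, by simp⟩
  have hmem : ∀ z ∈ U, ∀ t : ℝ, t ∈ Icc (0 : ℝ) 1 → c + (t : ℂ) * (z - c) ∈ U := by
    intro z hz t ht
    have h1 := hc.add_smul_sub_mem hcU hz ht
    rwa [Complex.real_smul] at h1
  have hda : ∀ z ∈ U, HasDerivAt f (deriv f z) z := fun z hz =>
    (hf.differentiableAt (hU.mem_nhds hz)).hasDerivAt
  have hdc : ContinuousOn (deriv f) U := (hf.deriv hU).continuousOn
  refine ⟨fun z => ∫ t in (0 : ℝ)..1, (z - c) * f (c + (t : ℂ) * (z - c)), fun z₀ hz₀ => ?_⟩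
  obtain ⟨ε, hε, hball⟩ := Metric.isOpen_iff.1 hU z₀ hz₀
  have hcb : closedBall z₀ (ε / 2) ⊆ U := (closedBall_subset_ball (by linarith)).trans hball
  set φ : ℂ × ℝ → ℂ := fun p => c + (p.2 : ℂ) * (p.1 - c) with hφ
  have hφc : Continuous φ := by rw [hφ]; fun_prop
  set K : Set ℂ := φ '' (closedBall z₀ (ε / 2) ×ˢ Icc (0 : ℝ) 1) with hK
  have hKc : IsCompact K :=
    ((isCompact_closedBall _ _).prod isCompact_Icc).image hφc
  have hKU : K ⊆ U := by
    rintro _ ⟨⟨z, t⟩, ⟨hz, ht⟩, rfl⟩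
    exact hmem z (hcb hz) t ht
  obtain ⟨M₁, hM₁⟩ := hKc.exists_bound_of_continuousOn (hf.continuousOn.mono hKU)
  obtain ⟨M₂, hM₂⟩ := hKc.exists_bound_of_continuousOn (hdc.mono hKU)
  have huI : Set.uIoc (0 : ℝ) 1 = Ioc 0 1 := Set.uIoc_of_le zero_le_one
  have hcont : ∀ z ∈ U, ContinuousOn (fun t : ℝ => f (c + (t : ℂ) * (z - c))) (Icc 0 1) := by
    intro z hz
    exact hf.continuousOn.comp (by fun_prop) (fun t ht => hmem z hz t ht)
  have hcont' : ∀ z ∈ U, ContinuousOn (fun t : ℝ => deriv f (c + (t : ℂ) * (z - c))) (Icc 0 1) := by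
    intro z hz
    exact hdc.comp (by fun_prop) (fun t ht => hmem z hz t ht)
  have key := intervalIntegral.hasDerivAt_integral_of_dominated_loc_of_deriv_le
    (μ := MeasureTheory.volume) (a := (0 : ℝ)) (b := 1)
    (F := fun (z : ℂ) (t : ℝ) => (z - c) * f (c + (t : ℂ) * (z - c)))
    (F' := fun (z : ℂ) (t : ℝ) => f (c + (t : ℂ) * (z - c)) +
      (z - c) * (deriv f (c + (t : ℂ) * (z - c)) * (t : ℂ)))
    (x₀ := z₀) (s := closedBall z₀ (ε / 2)) (bound := fun _ => M₁ + (‖z₀ - c‖ + ε / 2) * M₂)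
    (closedBall_mem_nhds _ (by linarith)) ?_ ?_ ?_ ?_ ?_ ?_
  · have h2 := key.2
    have h3 : ∫ t in (0 : ℝ)..1, (f (c + (t : ℂ) * (z₀ - c)) +
        (z₀ - c) * (deriv f (c + (t : ℂ) * (z₀ - c)) * (t : ℂ))) = f z₀ := by
      have h4 : ∀ t ∈ uIcc (0 : ℝ) 1, HasDerivAt (fun t : ℝ => (t : ℂ) * f (c + (t : ℂ) * (z₀ - c)))
          (f (c + (t : ℂ) * (z₀ - c)) + (z₀ - c) * (deriv f (c + (t : ℂ) * (z₀ - c)) * (t : ℂ))) t := by
        intro t ht
        rw [uIcc_of_le zero_le_one] at ht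
        have e1 : HasDerivAt (fun t : ℝ => (t : ℂ)) 1 t := Complex.ofRealCLM.hasDerivAt
        have e2 : HasDerivAt (fun t : ℝ => c + (t : ℂ) * (z₀ - c)) (z₀ - c) t := by
          have := (e1.mul_const (z₀ - c)).const_add c
          simpa using this
        have e3 := (hda _ (hmem z₀ hz₀ t ht)).scomp t e2
        have e4 := e1.mul e3
        refine e4.congr_deriv ?_
        simp only [Function.comp, smul_eq_mul, one_mul]
        ring
      rw [intervalIntegral.integral_eq_sub_of_hasDerivAt h4]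
      · simp
      · refine ContinuousOn.intervalIntegrable ?_
        rw [uIcc_of_le zero_le_one]
        exact (hcont z₀ hz₀).add (continuousOn_const.mul ((hcont' z₀ hz₀).mul (by fun_prop)))
    rw [h3] at h2
    exact h2
  · filter_upwards [closedBall_mem_nhds z₀ (show 0 < ε / 2 by linarith)] with z hz
    rw [huI]
    exact ((continuousOn_const.mul (hcont z (hcb hz))).mono Ioc_subset_Icc_self).aestronglyMeasurable
      measurableSet_Ioc
  · refine ContinuousOn.intervalIntegrable ?_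
    rw [uIcc_of_le zero_le_one]
    exact continuousOn_const.mul (hcont z₀ hz₀)
  · rw [huI]
    refine ContinuousOn.aestronglyMeasurable (ContinuousOn.mono ?_ Ioc_subset_Icc_self)
      measurableSet_Ioc
    exact (hcont z₀ hz₀).add (continuousOn_const.mul ((hcont' z₀ hz₀).mul (by fun_prop)))
  · refine Eventually.of_forall fun t ht z hz => ?_
    rw [huI] at ht
    have hK1 : c + (t : ℂ) * (z - c) ∈ K := ⟨(z, t), ⟨hz, ⟨ht.1.le, ht.2⟩⟩, rfl⟩
    have b1 := hM₁ _ hK1
    have b2 := hM₂ _ hK1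
    have hM2 : 0 ≤ M₂ := (norm_nonneg _).trans b2
    have b3 : ‖z - c‖ ≤ ‖z₀ - c‖ + ε / 2 := by
      rw [mem_closedBall, dist_eq_norm] at hz
      have := norm_sub_le_norm_sub_add_norm_sub z z₀ c
      linarith
    have b4 : ‖(t : ℂ)‖ ≤ 1 := by
      rw [norm_real, Real.norm_eq_abs, abs_of_nonneg ht.1.le]
      exact ht.2
    refine (norm_add_le _ _).trans (add_le_add b1 ?_)
    rw [norm_mul, norm_mul]
    have b5 : ‖deriv f (c + (t : ℂ) * (z - c))‖ * ‖(t : ℂ)‖ ≤ M₂ := by
      calc _ ≤ M₂ * 1 := by gcongr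
        _ = M₂ := mul_one _
    gcongr
  · exact intervalIntegrable_const
  · refine Eventually.of_forall fun t ht z hz => ?_
    rw [huI] at ht
    have e2 : HasDerivAt (fun z : ℂ => c + (t : ℂ) * (z - c)) (t : ℂ) z := by
      have := (((hasDerivAt_id z).sub_const c).const_mul (t : ℂ)).const_add c
      simpa using this
    have e3 := (hda _ (hmem z (hcb hz) t ⟨ht.1.le, ht.2⟩)).comp z e2
    have e4 := ((hasDerivAt_id z).sub_const c).mul e3
    refine e4.congr_deriv ?_
    simp only [Function.comp, id, one_mul]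



/-- the window under the edge `Im = t0` -/
def Win (a b t0 L : ℝ) : Set ℂ := {z | a < z.re ∧ z.re < b ∧ t0 - L < z.im ∧ z.im < t0}

theorem isOpen_Win (a b t0 L : ℝ) : IsOpen (Win a b t0 L) := by
  have : Win a b t0 L = Ioo a b ×ℂ Ioo (t0 - L) t0 := by
    ext z; simp [Win, mem_reProdIm, and_assoc]
  rw [this]
  exact isOpen_Ioo.reProdIm isOpen_Ioo

theorem convex_Win (a b t0 L : ℝ) : Convex ℝ (Win a b t0 L) := by
  have : Win a b t0 L = (Complex.reLm ⁻¹' Ioo a b) ∩ (Complex.imLm ⁻¹' Ioo (t0 - L) t0) := by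
    ext z; simp [Win, and_assoc]
  rw [this]
  exact ((convex_Ioo a b).linear_preimage _).inter ((convex_Ioo _ _).linear_preimage _)

theorem mem_Win {a b t0 L x h : ℝ} (h1 : a < x) (h2 : x < b) (h3 : t0 - L < h) (h4 : h < t0) :
    ((x : ℂ) + h * I) ∈ Win a b t0 L := by
  simp [Win, h1, h2, h3, h4]

section edge

variable {θ P : ℂ → ℂ} {a b t0 L H v : ℝ}

theorem cont_line (hd : DifferentiableOn ℂ θ (Win a b t0 L)) {x1 x2 h : ℝ} (h1 : a < x1)
    (h2 : x2 < b) (h3 : t0 - L < h) (h4 : h < t0) :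
    ContinuousOn (fun x : ℝ => (θ ((x : ℂ) + h * I)).im) (Icc x1 x2) := by
  refine Complex.continuous_im.comp_continuousOn (hd.continuousOn.comp (by fun_prop) ?_)
  intro x hx
  exact mem_Win (h1.trans_le hx.1) (hx.2.trans_lt h2) h3 h4

theorem ii_line (hd : DifferentiableOn ℂ θ (Win a b t0 L)) {x1 x2 h : ℝ} (h1 : x1 ∈ Ioo a b)
    (h2 : x2 ∈ Ioo a b) (h3 : t0 - L < h) (h4 : h < t0) :
    IntervalIntegrable (fun x : ℝ => (θ ((x : ℂ) + h * I)).im) volume x1 x2 := by
  refine ContinuousOn.intervalIntegrable ?_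
  rw [uIcc]
  exact cont_line hd (lt_inf_iff.2 ⟨h1.1, h2.1⟩) (sup_lt_iff.2 ⟨h1.2, h2.2⟩) h3 h4

/-- fundamental theorem along a horizontal line -/
theorem ftc_line (hd : DifferentiableOn ℂ θ (Win a b t0 L))
    (hP : ∀ z ∈ Win a b t0 L, HasDerivAt P (θ z) z) {x1 x2 h : ℝ} (h1 : x1 ∈ Ioo a b)
    (h2 : x2 ∈ Ioo a b) (h3 : t0 - L < h) (h4 : h < t0) :
    ∫ x in x1..x2, (θ ((x : ℂ) + h * I)).im
      = (P ((x2 : ℂ) + h * I)).im - (P ((x1 : ℂ) + h * I)).im := by
  refine intervalIntegral.integral_eq_sub_of_hasDerivAt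
    (f := fun x : ℝ => (P ((x : ℂ) + h * I)).im) ?_ (ii_line hd h1 h2 h3 h4)
  intro x hx
  have hx' : x ∈ Ioo a b := by
    rw [uIcc] at hx
    exact ⟨(lt_inf_iff.2 ⟨h1.1, h2.1⟩).trans_le hx.1, hx.2.trans_lt (sup_lt_iff.2 ⟨h1.2, h2.2⟩)⟩
  have e1 : HasDerivAt (fun x : ℝ => (x : ℂ) + h * I) 1 x := by
    have := (Complex.ofRealCLM.hasDerivAt (x := x)).add_const ((h : ℂ) * I)
    simpa using this
  have e2 := (hP _ (mem_Win hx'.1 hx'.2 h3 h4)).scomp x e1
  have e3 : HasDerivAt (fun x : ℝ => (P ((x : ℂ) + h * I)).im)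
      (Complex.imCLM ((1 : ℂ) • θ ((x : ℂ) + h * I))) x :=
    Complex.imCLM.hasFDerivAt.comp_hasDerivAt x e2
  simpa using e3

/-- **edge estimate** : local maximum of the primitive of `Fs - v` at `y`; shift `c = ± S` -/
theorem edge (hd : DifferentiableOn ℂ θ (Win a b t0 L)) (hb : ∀ z ∈ Win a b t0 L, |(θ z).im| ≤ H)
    (hv : |v| ≤ H) {Fs : ℝ → ℝ} {y δ s S c ε : ℝ} (hya : a < y - δ) (hyb : y + δ < b)
    (hFi : IntervalIntegrable Fs volume (y - δ) (y + δ))
    (hFb : ∀ᵐ x, x ∈ Icc (y - δ) (y + δ) → |Fs x| ≤ H)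
    (hFs : Tendsto (fun η : ℝ => ∫ x in (y - δ)..(y + δ), |(θ ((x : ℂ) + ((t0 - η : ℝ) : ℂ) * I)).im
      - Fs x|) (𝓝[>] 0) (𝓝 0))
    (hmax : ∀ x, |x - y| ≤ δ → ∫ u in y..x, (Fs u - v) ≤ 0)
    (s0 : 0 < s) (hsS : 4 * s ≤ S) (hSδ : 2 * S ≤ δ) (hSL : S < L) (hc : |c| = S)
    (hval : ε * S ≤ ∫ x in y..(y + c), ((θ ((x : ℂ) + ((t0 - s : ℝ) : ℂ) * I)).im - v)) :
    ε * S ≤ 2 * H * (Real.sqrt (S * s) + s) := by
  have S0 : 0 < S := by linarith
  have H0 : 0 ≤ H := (abs_nonneg v).trans hv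
  obtain ⟨P, hP⟩ := prim_convex (isOpen_Win a b t0 L) (convex_Win a b t0 L) hd
  refine le_of_forall_pos_le_add fun κ κ0 => ?_
  -- choose a small base depth
  have ev : ∀ᶠ η : ℝ in 𝓝[>] 0, (∫ x in (y - δ)..(y + δ), |(θ ((x : ℂ) + ((t0 - η : ℝ) : ℂ) * I)).im
      - Fs x|) < κ := hFs.eventually (gt_mem_nhds κ0)
  have ev2 : ∀ᶠ η : ℝ in 𝓝[>] 0, η < min s (L - S) := by
    have : (0 : ℝ) < min s (L - S) := lt_min s0 (by linarith)
    exact mem_nhdsWithin_of_mem_nhds (Iio_mem_nhds this)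
  obtain ⟨η, ⟨h1, h2⟩, h3⟩ := ((ev.and ev2).and self_mem_nhdsWithin).exists
  have η0 : 0 < η := h3
  have ηs : η < s := h2.trans_le (min_le_left _ _)
  have ηL : η < L - S := h2.trans_le (min_le_right _ _)
  set z0 : ℂ := (y : ℂ) + ((t0 - η : ℝ) : ℂ) * I with hz0
  have z0re : z0.re = y := by simp [hz0]
  have z0im : z0.im = t0 - η := by simp [hz0]
  set Q : ℂ → ℂ := fun z => P z - I * v * z with hQ
  set f : ℂ → ℂ := fun w => Q (z0 + w + c) - Q (z0 + w) with hf
  set U : Set ℂ := {w | z0 + w + c ∈ Win a b t0 L ∧ z0 + w ∈ Win a b t0 L} with hU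
  have hUo : IsOpen U := by
    have c1 : Continuous fun w : ℂ => z0 + w + c := by fun_prop
    have c2 : Continuous fun w : ℂ => z0 + w := by fun_prop
    exact ((isOpen_Win a b t0 L).preimage c1).inter ((isOpen_Win a b t0 L).preimage c2)
  have hQd : ∀ z ∈ Win a b t0 L, DifferentiableAt ℂ Q z := by
    intro z hz
    have : DifferentiableAt ℂ P z := (hP z hz).differentiableAt
    simp only [hQ]
    fun_prop
  have hfd : DifferentiableOn ℂ f U := by
    intro w hw
    have d1 : DifferentiableAt ℂ (fun w : ℂ => Q (z0 + w + c)) w :=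
      DifferentiableAt.comp w (hQd _ hw.1)
        (by fun_prop : DifferentiableAt ℂ (fun w : ℂ => z0 + w + c) w)
    have d2 : DifferentiableAt ℂ (fun w : ℂ => Q (z0 + w)) w :=
      DifferentiableAt.comp w (hQd _ hw.2)
        (by fun_prop : DifferentiableAt ℂ (fun w : ℂ => z0 + w) w)
    exact (d1.sub d2).differentiableWithinAt
  have hcS : -S ≤ c ∧ c ≤ S := abs_le.1 hc.le
  have hKU : ∀ w : ℂ, |w.re| ≤ S → -S ≤ w.im → w.im ≤ 0 → w ∈ U := by
    intro w k1 k2 k3
    obtain ⟨k4, k5⟩ := abs_le.1 k1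
    refine ⟨⟨?_, ?_, ?_, ?_⟩, ⟨?_, ?_, ?_, ?_⟩⟩ <;>
      simp only [Complex.add_re, Complex.add_im, z0re, z0im, Complex.ofReal_re,
        Complex.ofReal_im] <;> linarith [hcS.1, hcS.2]
  -- the imaginary part of `f` as an integral
  have him : ∀ t σ : ℝ, |t| ≤ S → 0 ≤ σ → σ ≤ S → (f ((t : ℂ) - σ * I)).im =
      ∫ x in (y + t)..(y + t + c), ((θ ((x : ℂ) + ((t0 - η - σ : ℝ) : ℂ) * I)).im - v) := by
    intro t σ ht hσ0 hσ
    obtain ⟨k4, k5⟩ := abs_le.1 ht
    have m1 : y + t ∈ Ioo a b := ⟨by linarith, by linarith⟩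
    have m2 : y + t + c ∈ Ioo a b := ⟨by linarith [hcS.1], by linarith [hcS.2]⟩
    have m3 : t0 - L < t0 - η - σ := by linarith
    have m4 : t0 - η - σ < t0 := by linarith
    rw [intervalIntegral.integral_sub (ii_line hd m1 m2 m3 m4) intervalIntegrable_const,
      ftc_line hd hP m1 m2 m3 m4, intervalIntegral.integral_const]
    have q1 : z0 + ((t : ℂ) - σ * I) + c = ((y + t + c : ℝ) : ℂ) + ((t0 - η - σ : ℝ) : ℂ) * I := by
      rw [hz0]; push_cast; ring
    have q2 : z0 + ((t : ℂ) - σ * I) = ((y + t : ℝ) : ℂ) + ((t0 - η - σ : ℝ) : ℂ) * I := by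
      rw [hz0]; push_cast; ring
    simp only [hf, hQ]
    rw [q1, q2]
    simp only [Complex.sub_im, Complex.mul_im, Complex.I_re, Complex.I_im, Complex.mul_re,
      Complex.ofReal_re, Complex.ofReal_im, Complex.add_re, smul_eq_mul, Complex.add_im]
    ring
  have hbd : ∀ x h : ℝ, x ∈ Ioo a b → t0 - L < h → h < t0 →
      ‖(θ ((x : ℂ) + (h : ℂ) * I)).im - v‖ ≤ 2 * H := by
    intro x h hx h5 h6
    have := hb _ (mem_Win hx.1 hx.2 h5 h6)
    rw [Real.norm_eq_abs]
    exact (abs_sub _ _).trans (by linarith)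
  have hI2 : IntervalIntegrable (fun x => Fs x) volume (y - δ) (y + δ) := hFi
  have hδ0 : 0 < δ := by linarith
  have hsub : ∀ x1 x2 : ℝ, |x1 - y| ≤ δ → |x2 - y| ≤ δ →
      IntervalIntegrable Fs volume x1 x2 := by
    intro x1 x2 k1 k2
    rw [abs_le] at k1 k2
    refine hFi.mono_set ?_
    rw [uIcc_of_le (show y - δ ≤ y + δ by linarith)]
    exact uIcc_subset_Icc ⟨by linarith, by linarith⟩ ⟨by linarith, by linarith⟩
  have base : ∀ t : ℝ, |t| ≤ S → (f (t : ℂ)).im ≤ 2 * H * |t| + κ := by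
    intro t ht
    obtain ⟨k4, k5⟩ := abs_le.1 ht
    have := him t 0 ht le_rfl S0.le
    simp only [Complex.ofReal_zero, zero_mul, sub_zero] at this
    rw [this]
    have m1 : y + t ∈ Ioo a b := ⟨by linarith, by linarith⟩
    have m2 : y + t + c ∈ Ioo a b := ⟨by linarith [hcS.1], by linarith [hcS.2]⟩
    have n1 : |y + t - y| ≤ δ := by rw [abs_le]; constructor <;> linarith
    have n2 : |y + t + c - y| ≤ δ := by
      rw [abs_le]; constructor <;> linarith [hcS.1, hcS.2]
    have n0 : |y - y| ≤ δ := by simp; linarith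
    have i1 := ii_line hd m1 m2 (h := t0 - η) (by linarith) (by linarith)
    have i2 : IntervalIntegrable Fs volume (y + t) (y + t + c) := hsub _ _ n1 n2
    have e1 : ∫ x in (y + t)..(y + t + c), ((θ ((x : ℂ) + ((t0 - η : ℝ) : ℂ) * I)).im - v)
        = (∫ x in (y + t)..(y + t + c), (Fs x - v)) +
          ∫ x in (y + t)..(y + t + c), ((θ ((x : ℂ) + ((t0 - η : ℝ) : ℂ) * I)).im - Fs x) := by
      rw [← intervalIntegral.integral_add (i2.sub intervalIntegrable_const) (i1.sub i2)]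
      congr 1
      ext x
      ring
    have e2 : ∫ x in (y + t)..(y + t + c), (Fs x - v)
        = (∫ x in y..(y + t + c), (Fs x - v)) - ∫ x in y..(y + t), (Fs x - v) := by
      rw [intervalIntegral.integral_interval_sub_left
        ((hsub _ _ n0 n2).sub intervalIntegrable_const)
        ((hsub _ _ n0 n1).sub intervalIntegrable_const)]
    have e3 := hmax _ n2
    have e4 : ‖∫ x in y..(y + t), (Fs x - v)‖ ≤ 2 * H * |y + t - y| := by
      refine intervalIntegral.norm_integral_le_of_norm_le_const_ae ?_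
      filter_upwards [hFb] with x hx hx2
      have hx3 : x ∈ Icc (y - δ) (y + δ) := by
        have : uIoc y (y + t) ⊆ Icc (y - δ) (y + δ) :=
          uIoc_subset_uIcc.trans (uIcc_subset_Icc ⟨by linarith, by linarith⟩
            ⟨by linarith, by linarith⟩)
        exact this hx2
      rw [Real.norm_eq_abs]
      exact (abs_sub _ _).trans (by linarith [hx hx3])
    rw [Real.norm_eq_abs, add_sub_cancel_left] at e4
    have e5 : ∫ x in (y + t)..(y + t + c), ((θ ((x : ℂ) + ((t0 - η : ℝ) : ℂ) * I)).im - Fs x)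
        ≤ κ := by
      refine (le_abs_self _).trans (le_trans ?_ h1.le)
      rw [← Real.norm_eq_abs]
      refine (intervalIntegral.norm_integral_le_abs_integral_norm).trans ?_
      have j1 : IntervalIntegrable (fun x : ℝ => |(θ ((x : ℂ) + ((t0 - η : ℝ) : ℂ) * I)).im - Fs x|)
          volume (y - δ) (y + δ) := by
        refine ((ii_line hd ⟨?_, ?_⟩ ⟨?_, ?_⟩ ?_ ?_).sub hFi).abs <;> linarith
      have j2 := intervalIntegral.abs_integral_mono_interval (f := fun x : ℝ =>
        |(θ ((x : ℂ) + ((t0 - η : ℝ) : ℂ) * I)).im - Fs x|) (μ := volume) (c := y - δ) (d := y + δ)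
        (a := y + t) (b := y + t + c) ?_ ?_ j1
      · refine (le_of_eq ?_).trans (j2.trans (le_of_eq ?_))
        · simp only [Real.norm_eq_abs]
        · rw [abs_of_nonneg]
          exact intervalIntegral.integral_nonneg (by linarith) (fun x _ => abs_nonneg _)
      · rw [uIoc_of_le (show y - δ ≤ y + δ by linarith)]
        intro x hx
        rw [uIoc, mem_Ioc, inf_lt_iff, le_sup_iff] at hx
        refine ⟨?_, ?_⟩
        · rcases hx.1 with h | h <;> linarith [hcS.1, hcS.2]
        · rcases hx.2 with h | h <;> linarith [hcS.1, hcS.2]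
      · exact Eventually.of_forall fun x => abs_nonneg _
    rw [e1, e2]
    have := neg_abs_le (∫ x in y..(y + t), (Fs x - v))
    linarith
  have full : ∀ w : ℂ, |w.re| ≤ S → -S ≤ w.im → w.im ≤ 0 → (f w).im ≤ 2 * H * S := by
    intro w k1 k2 k3
    obtain ⟨k4, k5⟩ := abs_le.1 k1
    have hw : w = ((w.re : ℝ) : ℂ) - ((-w.im : ℝ) : ℂ) * I := by
      apply Complex.ext <;> simp
    rw [hw, him w.re (-w.im) k1 (by linarith) (by linarith)]
    refine (le_abs_self _).trans ?_
    rw [← Real.norm_eq_abs]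
    have : ‖∫ x in (y + w.re)..(y + w.re + c),
        ((θ ((x : ℂ) + ((t0 - η - -w.im : ℝ) : ℂ) * I)).im - v)‖
        ≤ 2 * H * |y + w.re + c - (y + w.re)| := by
      refine intervalIntegral.norm_integral_le_of_norm_le_const fun x hx => ?_
      refine hbd x _ ⟨?_, ?_⟩ (by linarith) (by linarith)
      · rw [uIoc, mem_Ioc, inf_lt_iff, le_sup_iff] at hx
        rcases hx.1 with h | h <;> linarith [hcS.1, hcS.2]
      · rw [uIoc, mem_Ioc, inf_lt_iff, le_sup_iff] at hx
        rcases hx.2 with h | h <;> linarith [hcS.1, hcS.2]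
    rwa [add_sub_cancel_left, hc] at this
  have fin := core hUo hfd S0 (A := 2 * H) (κ := κ) (s := s - η) (by linarith) κ0.le (by linarith)
    (by linarith) hKU base full
  have h7 : (f (-((s - η : ℝ) : ℂ) * I)).im
      = ∫ x in y..(y + c), ((θ ((x : ℂ) + ((t0 - s : ℝ) : ℂ) * I)).im - v) := by
    have := him 0 (s - η) (by simp; linarith) (by linarith) (by linarith)
    have g1 : (((0 : ℝ) : ℂ) - ((s - η : ℝ) : ℂ) * I) = -((s - η : ℝ) : ℂ) * I := by
      push_cast; ring
    rw [g1] at this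
    rw [this]
    simp only [add_zero]
    congr 1
    ext x
    have g2 : t0 - η - (s - η) = t0 - s := by ring
    rw [g2]
  rw [h7] at fin
  refine hval.trans (fin.trans ?_)
  have h8 : Real.sqrt (S * (s - η)) ≤ Real.sqrt (S * s) := by
    apply Real.sqrt_le_sqrt
    nlinarith
  have h9 : 2 * H * (Real.sqrt (S * (s - η)) + (s - η)) ≤ 2 * H * (Real.sqrt (S * s) + s) := by
    apply mul_le_mul_of_nonneg_left _ (by linarith)
    linarith
  linarith

end edge


section main

variable {θ : ℂ → ℂ} {a b t0 L H v ε : ℝ}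

/-- at a local maximum of the primitive of `Fs - v` the level `v` is nearly attained at bounded
distance at every small scale -/
theorem level_max (hd : DifferentiableOn ℂ θ (Win a b t0 L))
    (hb : ∀ z ∈ Win a b t0 L, |(θ z).im| ≤ H) (hv : |v| ≤ H) (e0 : 0 < ε) (he : ε ≤ H)
    {Fs : ℝ → ℝ} {y δ s : ℝ} (hya : a < y - δ) (hyb : y + δ < b)
    (hFi : IntervalIntegrable Fs volume (y - δ) (y + δ))
    (hFb : ∀ᵐ x, x ∈ Icc (y - δ) (y + δ) → |Fs x| ≤ H)
    (hFs : Tendsto (fun η : ℝ => ∫ x in (y - δ)..(y + δ), |(θ ((x : ℂ) + ((t0 - η : ℝ) : ℂ) * I)).im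
      - Fs x|) (𝓝[>] 0) (𝓝 0))
    (hmax : ∀ x, |x - y| ≤ δ → ∫ u in y..x, (Fs u - v) ≤ 0)
    (s0 : 0 < s) (hsδ : 2 * (100 * (H / ε) ^ 2 * s) ≤ δ) (hsL : 100 * (H / ε) ^ 2 * s < L) :
    ∃ x, |x - y| ≤ 100 * (H / ε) ^ 2 * s ∧
      |(θ ((x : ℂ) + ((t0 - s : ℝ) : ℂ) * I)).im - v| ≤ ε := by
  have H0 : 0 < H := e0.trans_le he
  set R : ℝ := 100 * (H / ε) ^ 2 with hR
  have q1 : 1 ≤ H / ε := (one_le_div e0).2 he
  have hR4 : 100 ≤ R := by
    rw [hR]; nlinarith
  by_contra hcon
  push Not at hcon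
  set S : ℝ := R * s with hS
  have S0 : 0 < S := by positivity
  have hs4 : 4 * s ≤ S := by rw [hS]; nlinarith
  have hsS : s ≤ S := by linarith
  set F : ℝ → ℝ := fun x => (θ ((x : ℂ) + ((t0 - s : ℝ) : ℂ) * I)).im - v with hF
  have hSL : S < L := hsL
  have Fc : ContinuousOn F (Icc (y - S) (y + S)) := by
    refine (cont_line hd ?_ ?_ ?_ ?_).sub continuousOn_const <;> linarith
  have Fe : ∀ x ∈ Icc (y - S) (y + S), ε < |F x| := by
    intro x hx
    exact hcon x (abs_le.2 ⟨by linarith [hx.1], by linarith [hx.2]⟩)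
  have hy : y ∈ Icc (y - S) (y + S) := ⟨by linarith, by linarith⟩
  have nz : ∀ x ∈ Icc (y - S) (y + S), F x ≠ 0 := by
    intro x hx h
    have := Fe x hx
    rw [h, abs_zero] at this
    linarith
  have sgn : (∀ x ∈ Icc (y - S) (y + S), 0 < F x) ∨ ∀ x ∈ Icc (y - S) (y + S), F x < 0 := by
    rcases lt_or_gt_of_ne (nz y hy) with h | h
    · right
      intro x hx
      by_contra hx2
      push Not at hx2
      obtain ⟨z, hz, hz2⟩ := isPreconnected_Icc.intermediate_value hy hx Fc ⟨h.le, hx2⟩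
      exact nz z hz hz2
    · left
      intro x hx
      by_contra hx2
      push Not at hx2
      obtain ⟨z, hz, hz2⟩ := isPreconnected_Icc.intermediate_value hx hy Fc ⟨hx2, h.le⟩
      exact nz z hz hz2
  have key : ε * S ≤ 2 * H * (Real.sqrt (S * s) + s) := by
    rcases sgn with h | h
    · refine edge hd hb hv hya hyb hFi hFb hFs hmax s0 hs4 (by linarith) hSL (c := S)
        (abs_of_pos S0) ?_
      have i1 : IntervalIntegrable F volume y (y + S) := by
        refine ContinuousOn.intervalIntegrable (Fc.mono ?_)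
        rw [uIcc_of_le (by linarith)]
        exact Icc_subset_Icc (by linarith) le_rfl
      have := intervalIntegral.integral_mono_on (a := y) (b := y + S) (f := fun _ => ε) (g := F)
        (by linarith) intervalIntegrable_const i1 ?_
      · rw [intervalIntegral.integral_const, smul_eq_mul] at this
        refine le_trans (le_of_eq ?_) this
        ring
      · intro x hx
        have hx' : x ∈ Icc (y - S) (y + S) := ⟨by linarith [hx.1], hx.2⟩
        have := Fe x hx'
        rw [abs_of_pos (h x hx')] at this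
        exact this.le
    · refine edge hd hb hv hya hyb hFi hFb hFs hmax s0 hs4 (by linarith) hSL (c := -S)
        (by rw [abs_neg, abs_of_pos S0]) ?_
      have i1 : IntervalIntegrable F volume (y + -S) y := by
        refine ContinuousOn.intervalIntegrable (Fc.mono ?_)
        rw [uIcc_of_le (by linarith)]
        exact Icc_subset_Icc (by linarith) (by linarith)
      have := intervalIntegral.integral_mono_on (a := y + -S) (b := y) (f := F) (g := fun _ => -ε)
        (by linarith) i1 intervalIntegrable_const ?_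
      · rw [intervalIntegral.integral_const, smul_eq_mul] at this
        rw [intervalIntegral.integral_symm]
        have e : ∫ x in (y + -S)..y, F x = ∫ x in (y + -S)..y,
          ((θ ((x : ℂ) + ((t0 - s : ℝ) : ℂ) * I)).im - v) := rfl
        rw [← e]
        nlinarith
      · intro x hx
        have hx' : x ∈ Icc (y - S) (y + S) := ⟨by linarith [hx.1], by linarith [hx.2]⟩
        have := Fe x hx'
        rw [abs_of_neg (h x hx')] at this
        linarith
  have hsq : Real.sqrt (S * s) = 10 * (H / ε) * s := by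
    rw [hS, hR]
    have : 100 * (H / ε) ^ 2 * s * s = (10 * (H / ε) * s) ^ 2 := by ring
    rw [this, Real.sqrt_sq (by positivity)]
  rw [hsq, hS, hR] at key
  have k1 : ε * (100 * (H / ε) ^ 2 * s) = 100 * (H * (H / ε)) * s := by
    field_simp
  rw [k1] at key
  have k2 : H ≤ H * (H / ε) := le_mul_of_one_le_right H0.le q1
  have k3 : 0 < H * (H / ε) * s := by positivity
  have k4 : H * s ≤ H * (H / ε) * s := mul_le_mul_of_nonneg_right k2 s0.le
  nlinarith

/-- the same at a local minimum -/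
theorem level_min (hd : DifferentiableOn ℂ θ (Win a b t0 L))
    (hb : ∀ z ∈ Win a b t0 L, |(θ z).im| ≤ H) (hv : |v| ≤ H) (e0 : 0 < ε) (he : ε ≤ H)
    {Fs : ℝ → ℝ} {y δ s : ℝ} (hya : a < y - δ) (hyb : y + δ < b)
    (hFi : IntervalIntegrable Fs volume (y - δ) (y + δ))
    (hFb : ∀ᵐ x, x ∈ Icc (y - δ) (y + δ) → |Fs x| ≤ H)
    (hFs : Tendsto (fun η : ℝ => ∫ x in (y - δ)..(y + δ), |(θ ((x : ℂ) + ((t0 - η : ℝ) : ℂ) * I)).im
      - Fs x|) (𝓝[>] 0) (𝓝 0))
    (hmin : ∀ x, |x - y| ≤ δ → 0 ≤ ∫ u in y..x, (Fs u - v))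
    (s0 : 0 < s) (hsδ : 2 * (100 * (H / ε) ^ 2 * s) ≤ δ) (hsL : 100 * (H / ε) ^ 2 * s < L) :
    ∃ x, |x - y| ≤ 100 * (H / ε) ^ 2 * s ∧
      |(θ ((x : ℂ) + ((t0 - s : ℝ) : ℂ) * I)).im - v| ≤ ε := by
  have h := level_max (θ := fun z => -θ z) (v := -v) (Fs := fun x => -Fs x) (ε := ε) (H := H)
    (L := L) (t0 := t0) (s := s) (δ := δ) (y := y) hd.neg
    (fun z hz => by simpa using hb z hz) (by simpa using hv) e0 he hya hyb hFi.neg
    (by filter_upwards [hFb] with x hx hx2; simpa using hx hx2) ?_ ?_ s0 hsδ hsL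
  · obtain ⟨x, h1, h2⟩ := h
    refine ⟨x, h1, ?_⟩
    rw [← abs_neg]
    refine le_trans (le_of_eq ?_) h2
    congr 1
    simp only [Complex.neg_im]
    ring
  · refine hFs.congr fun η => ?_
    congr 1
    ext x
    simp only [Complex.neg_im]
    rw [← abs_neg]
    congr 1
    ring
  · intro x hx
    have := hmin x hx
    have e : ∫ u in y..x, (-Fs u - -v) = - ∫ u in y..x, (Fs u - v) := by
      rw [← intervalIntegral.integral_neg]
      congr 1
      ext u
      ring
    rw [e]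
    linarith

end main


section final

variable {θ : ℂ → ℂ} {a b t0 L H v ε : ℝ} {Fs : ℝ → ℝ}

theorem bd_lim (L0 : 0 < L) (hb : ∀ z ∈ Win a b t0 L, |(θ z).im| ≤ H)
    (hF : ∀ᵐ x, x ∈ Ioo a b → Tendsto (fun η : ℝ => (θ ((x : ℂ) + ((t0 - η : ℝ) : ℂ) * I)).im)
      (𝓝[>] 0) (𝓝 (Fs x))) : ∀ᵐ x, x ∈ Ioo a b → |Fs x| ≤ H := by
  filter_upwards [hF] with x hx hx2
  have h1 := (hx hx2).abs
  refine le_of_tendsto h1 ?_
  have : ∀ᶠ η : ℝ in 𝓝[>] 0, η < L := mem_nhdsWithin_of_mem_nhds (Iio_mem_nhds L0)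
  filter_upwards [this, self_mem_nhdsWithin] with η h2 h3
  have h3' : (0 : ℝ) < η := h3
  exact hb _ (mem_Win hx2.1 hx2.2 (by linarith) (by linarith))

theorem int_lim (L0 : 0 < L) (hd : DifferentiableOn ℂ θ (Win a b t0 L))
    (hb : ∀ z ∈ Win a b t0 L, |(θ z).im| ≤ H)
    (hF : ∀ᵐ x, x ∈ Ioo a b → Tendsto (fun η : ℝ => (θ ((x : ℂ) + ((t0 - η : ℝ) : ℂ) * I)).im)
      (𝓝[>] 0) (𝓝 (Fs x))) : IntegrableOn Fs (Ioo a b) := by
  have hm : AEStronglyMeasurable Fs (volume.restrict (Ioo a b)) := by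
    set u : ℕ → ℝ := fun n => L / ((n : ℝ) + 2) with hu
    have hu0 : ∀ n, 0 < u n := fun n => by simp only [hu]; positivity
    have huL : ∀ n, u n < L := fun n => by
      simp only [hu]
      rw [div_lt_iff₀ (by positivity)]
      nlinarith [(Nat.cast_nonneg n : (0 : ℝ) ≤ n)]
    have hut : Tendsto u atTop (𝓝[>] 0) := by
      refine tendsto_nhdsWithin_iff.2 ⟨?_, Eventually.of_forall fun n => hu0 n⟩
      simp only [hu]
      refine Tendsto.const_div_atTop ?_ L
      exact tendsto_atTop_add_const_right _ _ tendsto_natCast_atTop_atTop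
    refine aestronglyMeasurable_of_tendsto_ae atTop
      (f := fun n (x : ℝ) => (θ ((x : ℂ) + ((t0 - u n : ℝ) : ℂ) * I)).im) ?_ ?_
    · intro n
      refine ContinuousOn.aestronglyMeasurable ?_ measurableSet_Ioo
      refine Complex.continuous_im.comp_continuousOn (hd.continuousOn.comp (by fun_prop) ?_)
      intro x hx
      exact mem_Win hx.1 hx.2 (by linarith [huL n]) (by linarith [hu0 n])
    · rw [ae_restrict_iff' measurableSet_Ioo]
      filter_upwards [hF] with x hx hx2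
      exact (hx hx2).comp hut
  refine ⟨hm, ?_⟩
  have : ∀ᵐ x ∂(volume.restrict (Ioo a b)), ‖Fs x‖ ≤ H := by
    rw [ae_restrict_iff' measurableSet_Ioo]
    exact bd_lim L0 hb hF
  exact HasFiniteIntegral.of_bounded this

theorem L1_lim (L0 : 0 < L) (hd : DifferentiableOn ℂ θ (Win a b t0 L))
    (hb : ∀ z ∈ Win a b t0 L, |(θ z).im| ≤ H)
    (hF : ∀ᵐ x, x ∈ Ioo a b → Tendsto (fun η : ℝ => (θ ((x : ℂ) + ((t0 - η : ℝ) : ℂ) * I)).im)
      (𝓝[>] 0) (𝓝 (Fs x))) {p q : ℝ} (hp : a < p) (hpq : p ≤ q) (hq : q < b) :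
    Tendsto (fun η : ℝ => ∫ x in p..q, |(θ ((x : ℂ) + ((t0 - η : ℝ) : ℂ) * I)).im - Fs x|)
      (𝓝[>] 0) (𝓝 0) := by
  have hsub : uIoc p q ⊆ Ioo a b := by
    rw [uIoc_of_le hpq]
    intro x hx
    exact ⟨hp.trans hx.1, hx.2.trans_lt hq⟩
  have hbl := bd_lim L0 hb hF
  have hev : ∀ᶠ η : ℝ in 𝓝[>] 0, 0 < η ∧ η < L := by
    have : ∀ᶠ η : ℝ in 𝓝[>] 0, η < L := mem_nhdsWithin_of_mem_nhds (Iio_mem_nhds L0)
    filter_upwards [this, self_mem_nhdsWithin] with η h2 h3
    exact ⟨h3, h2⟩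
  have hmF := (int_lim L0 hd hb hF).1
  have := intervalIntegral.tendsto_integral_filter_of_dominated_convergence (μ := volume)
    (a := p) (b := q) (l := 𝓝[>] (0 : ℝ))
    (F := fun η x => |(θ ((x : ℂ) + ((t0 - η : ℝ) : ℂ) * I)).im - Fs x|) (f := fun _ => (0 : ℝ))
    (fun _ => 2 * H) ?_ ?_ ?_ ?_
  · simpa using this
  · filter_upwards [hev] with η hη
    have c1 : AEStronglyMeasurable (fun x : ℝ => (θ ((x : ℂ) + ((t0 - η : ℝ) : ℂ) * I)).im)
        (volume.restrict (uIoc p q)) := by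
      refine ContinuousOn.aestronglyMeasurable ?_ measurableSet_uIoc
      refine Complex.continuous_im.comp_continuousOn (hd.continuousOn.comp (by fun_prop) ?_)
      intro x hx
      exact mem_Win (hsub hx).1 (hsub hx).2 (by linarith [hη.2]) (by linarith [hη.1])
    exact (c1.sub (hmF.mono_set hsub)).norm
  · filter_upwards [hev] with η hη
    filter_upwards [hbl] with x hx hx2
    have e1 := hb _ (mem_Win (t0 := t0) (L := L) (h := t0 - η) (hsub hx2).1 (hsub hx2).2
      (by linarith [hη.2]) (by linarith [hη.1]))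
    have e2 := hx (hsub hx2)
    rw [Real.norm_eq_abs, abs_abs]
    exact (abs_sub _ _).trans (by linarith)
  · exact intervalIntegrable_const
  · filter_upwards [hF] with x hx hx2
    have h1 := hx (hsub hx2)
    have h2 := (h1.sub_const (Fs x)).abs
    simpa using h2

/-- **row MID**: a point of the edge over which, at every small scale, the level `v` is attained
up to `ε` at bounded hyperbolic distance -/
theorem mid (hab : a < b) (L0 : 0 < L) (hd : DifferentiableOn ℂ θ (Win a b t0 L))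
    (hb : ∀ z ∈ Win a b t0 L, |(θ z).im| ≤ H) (hv : |v| ≤ H)
    (hF : ∀ᵐ x, x ∈ Ioo a b → Tendsto (fun η : ℝ => (θ ((x : ℂ) + ((t0 - η : ℝ) : ℂ) * I)).im)
      (𝓝[>] 0) (𝓝 (Fs x)))
    (h1 : ¬ ∀ᵐ x, x ∈ Ioo a b → Fs x ≤ v) (h2 : ¬ ∀ᵐ x, x ∈ Ioo a b → v ≤ Fs x) :
    ∃ y ∈ Ioo a b, ∀ ε : ℝ, 0 < ε → ε ≤ H → ∃ s₀ > 0, ∀ s ∈ Ioo 0 s₀,
      ∃ x, |x - y| ≤ 100 * (H / ε) ^ 2 * s ∧
        |(θ ((x : ℂ) + ((t0 - s : ℝ) : ℂ) * I)).im - v| ≤ ε := by
  set φ : ℝ → ℝ := fun x => Fs x - v with hφ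
  have hint : IntegrableOn Fs (Ioo a b) := int_lim L0 hd hb hF
  have hiF : IntervalIntegrable Fs volume a b := by
    rw [intervalIntegrable_iff_integrableOn_Ioo_of_le hab.le]
    exact hint
  have hiφ : IntervalIntegrable φ volume a b := hiF.sub intervalIntegrable_const
  have hcp : ∀ x1 ∈ Ioo a b, ∀ x2 ∈ Ioo a b, IntervalIntegrable φ volume x1 x2 := by
    intro x1 k1 x2 k2
    refine hiφ.mono_set ?_
    rw [uIcc_of_le hab.le]
    exact uIcc_subset_Icc ⟨k1.1.le, k1.2.le⟩ ⟨k2.1.le, k2.2.le⟩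
  set m : ℝ := (a + b) / 2 with hm
  have hmab : m ∈ Ioo a b := ⟨by rw [hm]; linarith, by rw [hm]; linarith⟩
  set G : ℝ → ℝ := fun x => ∫ u in m..x, φ u with hG
  have hGc : ContinuousOn G (Icc a b) := by
    have := intervalIntegral.continuousOn_primitive_interval' hiφ
      (a := m) (by rw [uIcc_of_le hab.le]; exact Ioo_subset_Icc_self hmab)
    rwa [uIcc_of_le hab.le] at this
  have hder : ∀ᵐ x, x ∈ Ioo a b → HasDerivAt G (φ x) x := by
    filter_upwards [hiφ.ae_hasDerivAt_integral] with x hx hx2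
    rw [uIcc_of_le hab.le] at hx
    exact hx (Ioo_subset_Icc_self hx2) m (Ioo_subset_Icc_self hmab)
  have hninj : ¬ InjOn G (Ioo a b) := by
    intro hinj
    rcases (hGc.mono Ioo_subset_Icc_self).strictMonoOn_of_injOn_Ioo hab hinj with hmo | han
    · apply h2
      filter_upwards [hder] with x hx hx2
      have hd1 := hx hx2
      have : 0 ≤ φ x := by
        have hs : Tendsto (slope G x) (𝓝[>] x) (𝓝 (φ x)) :=
          (hasDerivAt_iff_tendsto_slope.1 hd1).mono_left
            (nhdsWithin_mono _ (fun z hz => ne_of_gt hz))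
        refine ge_of_tendsto hs ?_
        filter_upwards [Ioo_mem_nhdsGT hx2.2] with z hz
        rw [slope_def_field]
        have : G x < G z := hmo hx2 ⟨hx2.1.trans hz.1, hz.2⟩ hz.1
        exact div_nonneg (by linarith) (by linarith [hz.1])
      have : 0 ≤ Fs x - v := this
      linarith
    · apply h1
      filter_upwards [hder] with x hx hx2
      have hd1 := hx hx2
      have : φ x ≤ 0 := by
        have hs : Tendsto (slope G x) (𝓝[>] x) (𝓝 (φ x)) :=
          (hasDerivAt_iff_tendsto_slope.1 hd1).mono_left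
            (nhdsWithin_mono _ (fun z hz => ne_of_gt hz))
        refine le_of_tendsto hs ?_
        filter_upwards [Ioo_mem_nhdsGT hx2.2] with z hz
        rw [slope_def_field]
        have : G z < G x := han hx2 ⟨hx2.1.trans hz.1, hz.2⟩ hz.1
        exact div_nonpos_of_nonpos_of_nonneg (by linarith) (by linarith [hz.1])
      have : Fs x - v ≤ 0 := this
      linarith
  obtain ⟨c, hc, hext⟩ : ∃ c ∈ Ioo a b, IsLocalExtr G c := by
    simp only [InjOn, not_forall] at hninj
    obtain ⟨x1, k1, x2, k2, k3, k4⟩ := hninj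
    rcases lt_or_gt_of_ne k4 with h | h
    · obtain ⟨c, hc, hc2⟩ := exists_isLocalExtr_Ioo h
        (hGc.mono (Icc_subset_Icc k1.1.le k2.2.le)) k3
      exact ⟨c, ⟨k1.1.trans hc.1, hc.2.trans k2.2⟩, hc2⟩
    · obtain ⟨c, hc, hc2⟩ := exists_isLocalExtr_Ioo h
        (hGc.mono (Icc_subset_Icc k2.1.le k1.2.le)) k3.symm
      exact ⟨c, ⟨k2.1.trans hc.1, hc.2.trans k1.2⟩, hc2⟩
  refine ⟨c, hc, fun ε e0 he => ?_⟩
  have hGd : ∀ x ∈ Ioo a b, G x - G c = ∫ u in c..x, (Fs u - v) := by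
    intro x hx
    simp only [hG]
    rw [intervalIntegral.integral_interval_sub_left (hcp _ hmab _ hx) (hcp _ hmab _ hc)]
  -- a radius
  have hrad : ∀ p : ℝ → Prop, (∀ᶠ x in 𝓝 c, p x) → ∃ δ > 0, a < c - δ ∧ c + δ < b ∧
      ∀ x, |x - c| ≤ δ → p x := by
    intro p hp
    obtain ⟨r, r0, hr⟩ := Metric.eventually_nhds_iff.1 hp
    refine ⟨min (r / 2) (min ((c - a) / 2) ((b - c) / 2)), ?_, ?_, ?_, ?_⟩
    · refine lt_min (by linarith) (lt_min ?_ ?_)
      · linarith [hc.1]
      · linarith [hc.2]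
    · have : min (r / 2) (min ((c - a) / 2) ((b - c) / 2)) ≤ (c - a) / 2 :=
        (min_le_right _ _).trans (min_le_left _ _)
      linarith [hc.1]
    · have : min (r / 2) (min ((c - a) / 2) ((b - c) / 2)) ≤ (b - c) / 2 :=
        (min_le_right _ _).trans (min_le_right _ _)
      linarith [hc.2]
    · intro x hx
      apply hr
      rw [Real.dist_eq]
      have : min (r / 2) (min ((c - a) / 2) ((b - c) / 2)) ≤ r / 2 := min_le_left _ _
      linarith
  have H0 : 0 < H := e0.trans_le he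
  set R : ℝ := 100 * (H / ε) ^ 2 with hR
  have R0 : 0 < R := by positivity
  have hbl := bd_lim L0 hb hF
  rcases hext with hmn | hmx
  · obtain ⟨δ, δ0, d1, d2, d3⟩ := hrad _ hmn
    refine ⟨min (δ / (2 * R)) (L / R), lt_min (by positivity) (by positivity), fun s hs => ?_⟩
    have s1 : s < δ / (2 * R) := hs.2.trans_le (min_le_left _ _)
    have s2 : s < L / R := hs.2.trans_le (min_le_right _ _)
    rw [lt_div_iff₀ (by positivity)] at s1 s2
    have hiδ : IntervalIntegrable Fs volume (c - δ) (c + δ) := by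
      refine hiF.mono_set ?_
      rw [uIcc_of_le hab.le]
      exact uIcc_subset_Icc ⟨by linarith, by linarith⟩ ⟨by linarith, by linarith⟩
    refine level_min hd hb hv e0 he d1 d2 hiδ ?_ (L1_lim L0 hd hb hF d1 (by linarith) d2) ?_ hs.1
      (by rw [← hR]; linarith) (by rw [← hR]; linarith)
    · filter_upwards [hbl] with x hx hx2
      exact hx ⟨by linarith [hx2.1], by linarith [hx2.2]⟩
    · intro x hx
      have hx3 := d3 x hx
      rw [abs_le] at hx
      rw [← hGd x ⟨by linarith, by linarith⟩]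
      linarith
  · obtain ⟨δ, δ0, d1, d2, d3⟩ := hrad _ hmx
    refine ⟨min (δ / (2 * R)) (L / R), lt_min (by positivity) (by positivity), fun s hs => ?_⟩
    have s1 : s < δ / (2 * R) := hs.2.trans_le (min_le_left _ _)
    have s2 : s < L / R := hs.2.trans_le (min_le_right _ _)
    rw [lt_div_iff₀ (by positivity)] at s1 s2
    have hiδ : IntervalIntegrable Fs volume (c - δ) (c + δ) := by
      refine hiF.mono_set ?_
      rw [uIcc_of_le hab.le]
      exact uIcc_subset_Icc ⟨by linarith, by linarith⟩ ⟨by linarith, by linarith⟩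
    refine level_max hd hb hv e0 he d1 d2 hiδ ?_ (L1_lim L0 hd hb hF d1 (by linarith) d2) ?_ hs.1
      (by rw [← hR]; linarith) (by rw [← hR]; linarith)
    · filter_upwards [hbl] with x hx hx2
      exact hx ⟨by linarith [hx2.1], by linarith [hx2.2]⟩
    · intro x hx
      have hx3 := d3 x hx
      rw [abs_le] at hx
      rw [← hGd x ⟨by linarith, by linarith⟩]
      linarith

end final

end Vale.Agent.P097.H505
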