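import Vale.Agent.P097.H505.OneType

/-!
# P097 / (A5): Lemma N, variants (walls given; levels restricted to a dense set)
-/

set_option linter.all false

open Complex Metric Filter Topology Set MeasureTheory

namespace Vale.Agent.P097.H505

variable {θ : ℂ → ℂ} {a b t0 L H v : ℝ} {Fs : ℝ → ℝ}

/-- boundary values are walls a.e., no nested point of ONE level `v` : one type -/
theorem one_type_walls (hab : a < b) (L0 : 0 < L)
    (hd : DifferentiableOn ℂ θ (Win a b t0 L)) (hb : ∀ z ∈ Win a b t0 L, |(θ z).im| ≤ H)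
    (hF : ∀ᵐ x, x ∈ Ioo a b → Tendsto (fun η : ℝ => (θ ((x : ℂ) + ((t0 - η : ℝ) : ℂ) * I)).im)
      (𝓝[>] 0) (𝓝 (Fs x)))
    (hw : ∀ᵐ x, x ∈ Ioo a b → Fs x = H ∨ Fs x = -H) (hv : |v| < H)
    (hN : ∀ y ∈ Ioo a b, ¬ Nest θ t0 H y v) :
    (∀ᵐ x, x ∈ Ioo a b → Fs x = H) ∨ ∀ᵐ x, x ∈ Ioo a b → Fs x = -H := by
  have hdich : (∀ᵐ x, x ∈ Ioo a b → Fs x ≤ v) ∨ ∀ᵐ x, x ∈ Ioo a b → v ≤ Fs x := by
    by_contra hcon
    rw [not_or] at hcon
    obtain ⟨y, hy, hy2⟩ := mid hab L0 hd hb hv.le hF hcon.1 hcon.2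
    exact hN y hy hy2
  rw [abs_lt] at hv
  rcases hdich with h | h
  · right
    filter_upwards [h, hw] with x h1 h2 hx
    rcases h2 hx with h3 | h3
    · have := h1 hx
      linarith
    · exact h3
  · left
    filter_upwards [h, hw] with x h1 h2 hx
    rcases h2 hx with h3 | h3
    · exact h3
    · have := h1 hx
      linarith

/-- levels restricted to a dense set `D` : one wall type, or an a.e. constant interior value
outside `D` -/
theorem one_type_dense (hab : a < b) (L0 : 0 < L) (H0 : 0 < H)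
    (hd : DifferentiableOn ℂ θ (Win a b t0 L)) (hb : ∀ z ∈ Win a b t0 L, |(θ z).im| ≤ H)
    (hF : ∀ᵐ x, x ∈ Ioo a b → Tendsto (fun η : ℝ => (θ ((x : ℂ) + ((t0 - η : ℝ) : ℂ) * I)).im)
      (𝓝[>] 0) (𝓝 (Fs x))) {D : Set ℝ} (hD : Dense D)
    (hN : ∀ y ∈ Ioo a b, ∀ v ∈ D, |v| < H → ¬ Nest θ t0 H y v) :
    (∀ᵐ x, x ∈ Ioo a b → Fs x = H) ∨ (∀ᵐ x, x ∈ Ioo a b → Fs x = -H) ∨
      ∃ c, |c| < H ∧ c ∉ D ∧ ∀ᵐ x, x ∈ Ioo a b → Fs x = c := by
  have hbl := bd_lim L0 hb hF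
  obtain ⟨S, hSD, hSc, hSd⟩ := hD.exists_countable_dense_subset
  have hbtw : ∀ p q : ℝ, p < q → ∃ r ∈ S, p < r ∧ r < q := by
    intro p q hpq
    obtain ⟨r, hr, hr2⟩ := hSd.exists_mem_open isOpen_Ioo (nonempty_Ioo.2 hpq)
    exact ⟨r, hr, hr2.1, hr2.2⟩
  have hdich : ∀ v ∈ S, |v| < H →
      (∀ᵐ x, x ∈ Ioo a b → Fs x ≤ v) ∨ ∀ᵐ x, x ∈ Ioo a b → v ≤ Fs x := by
    intro v hvS hv
    by_contra hcon
    rw [not_or] at hcon
    obtain ⟨y, hy, hy2⟩ := mid hab L0 hd hb hv.le hF hcon.1 hcon.2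
    exact hN y hy v (hSD hvS) hv hy2
  by_cases hup : ∃ v ∈ S, |v| < H ∧ ∀ᵐ x, x ∈ Ioo a b → Fs x ≤ v
  swap
  · left
    have h1 : ∀ᵐ x, ∀ q ∈ S, |q| < H → x ∈ Ioo a b → q ≤ Fs x := by
      rw [ae_ball_iff hSc]
      intro q hqS
      by_cases hq : |q| < H
      · rcases hdich q hqS hq with h | h
        · exact absurd ⟨q, hqS, hq, h⟩ hup
        · filter_upwards [h] with x hx _ hx2
          exact hx hx2
      · exact Eventually.of_forall fun x h => absurd h hq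
    filter_upwards [h1, hbl] with x hx hx2 hx3
    refine le_antisymm ((le_abs_self _).trans (hx2 hx3)) ?_
    by_contra hlt
    push Not at hlt
    obtain ⟨q, qS, q1, q2⟩ := hbtw _ _ (max_lt hlt (show -H < H by linarith))
    have q3 : -H < q := (le_max_right _ _).trans_lt q1
    have q4 : Fs x < q := (le_max_left _ _).trans_lt q1
    have := hx q qS (abs_lt.2 ⟨q3, q2⟩) hx3
    linarith
  by_cases hlo : ∃ v ∈ S, |v| < H ∧ ∀ᵐ x, x ∈ Ioo a b → v ≤ Fs x
  swap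
  · right; left
    have h1 : ∀ᵐ x, ∀ q ∈ S, |q| < H → x ∈ Ioo a b → Fs x ≤ q := by
      rw [ae_ball_iff hSc]
      intro q hqS
      by_cases hq : |q| < H
      · rcases hdich q hqS hq with h | h
        · filter_upwards [h] with x hx _ hx2
          exact hx hx2
        · exact absurd ⟨q, hqS, hq, h⟩ hlo
      · exact Eventually.of_forall fun x h => absurd h hq
    filter_upwards [h1, hbl] with x hx hx2 hx3
    refine le_antisymm ?_ (abs_le.1 (hx2 hx3)).1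
    by_contra hlt
    push Not at hlt
    obtain ⟨q, qS, q1, q2⟩ := hbtw _ _ (lt_min hlt (show -H < H by linarith))
    have q3 : q < H := q2.trans_le (min_le_right _ _)
    have q4 : q < Fs x := q2.trans_le (min_le_left _ _)
    have := hx q qS (abs_lt.2 ⟨q1, q3⟩) hx3
    linarith
  right; right
  obtain ⟨vu, hvuS, hvu, hvu2⟩ := hup
  obtain ⟨vl, hvlS, hvl, hvl2⟩ := hlo
  set W : Set ℝ := {v | |v| < H ∧ ∀ᵐ x, x ∈ Ioo a b → Fs x ≤ v} with hW
  have Wne : W.Nonempty := ⟨vu, hvu, hvu2⟩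
  have Wbd : BddBelow W := ⟨-H, fun v hv => (abs_lt.1 hv.1).1.le⟩
  set c : ℝ := sInf W with hc
  have hpos : ∃ᶠ x in ae volume, x ∈ Ioo a b := by
    rw [frequently_ae_iff]
    have : {x | x ∈ Ioo a b} = Ioo a b := rfl
    rw [this, Real.volume_Ioo]
    simpa using hab
  have hlc : vl ≤ c := by
    refine le_csInf Wne fun v hv => ?_
    obtain ⟨x, hx1, hx2, hx3⟩ := (hpos.and_eventually (hvl2.and hv.2)).exists
    exact (hx2 hx1).trans (hx3 hx1)
  have hcu : c ≤ vu := csInf_le Wbd ⟨hvu, hvu2⟩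
  have hcH : |c| < H := abs_lt.2 ⟨(abs_lt.1 hvl).1.trans_le hlc, hcu.trans_lt (abs_lt.1 hvu).2⟩
  have hce : ∀ᵐ x, x ∈ Ioo a b → Fs x = c := by
    have e1 : ∀ᵐ x, ∀ q ∈ S, c < q → |q| < H → x ∈ Ioo a b → Fs x ≤ q := by
      rw [ae_ball_iff hSc]
      intro q hqS
      by_cases hq : c < q
      · obtain ⟨v, hv, hv2⟩ := exists_lt_of_csInf_lt Wne hq
        filter_upwards [hv.2] with x hx _ _ hx2
        exact (hx hx2).trans hv2.le
      · exact Eventually.of_forall fun x h => absurd h hq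
    have e2 : ∀ᵐ x, ∀ q ∈ S, q < c → |q| < H → x ∈ Ioo a b → q ≤ Fs x := by
      rw [ae_ball_iff hSc]
      intro q hqS
      by_cases hq : q < c ∧ |q| < H
      · rcases hdich q hqS hq.2 with h | h
        · exact absurd (csInf_le Wbd ⟨hq.2, h⟩) (not_le.2 hq.1)
        · filter_upwards [h] with x hx _ _ hx2
          exact hx hx2
      · exact Eventually.of_forall fun x h1 h2 => absurd ⟨h1, h2⟩ hq
    filter_upwards [e1, e2] with x h1 h2 hx
    refine le_antisymm ?_ ?_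
    · by_contra hlt
      push Not at hlt
      obtain ⟨q, qS, q1, q2⟩ := hbtw _ _ (lt_min hlt (abs_lt.1 hcH).2)
      have q3 : q < H := q2.trans_le (min_le_right _ _)
      have q4 : q < Fs x := q2.trans_le (min_le_left _ _)
      have := h1 q qS q1 (abs_lt.2 ⟨(abs_lt.1 hcH).1.trans q1, q3⟩) hx
      linarith
    · by_contra hlt
      push Not at hlt
      obtain ⟨q, qS, q1, q2⟩ := hbtw _ _ (max_lt hlt (abs_lt.1 hcH).1)
      have q3 : -H < q := (le_max_right _ _).trans_lt q1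
      have q4 : Fs x < q := (le_max_left _ _).trans_lt q1
      have := h2 q qS q2 (abs_lt.2 ⟨q3, q2.trans (abs_lt.1 hcH).2⟩) hx
      linarith
  refine ⟨c, hcH, fun hcD => ?_, hce⟩
  have hm : (a + b) / 2 ∈ Ioo a b := ⟨by linarith, by linarith⟩
  exact hN _ hm c hcD hcH (nest_const L0 hd hb hcH.le hF hce hm)

end Vale.Agent.P097.H505
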