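import Mathlib

/-!
# Markov chains driven by a kernel, and harmonic functions along them

`K : Kernel Y Y` a Markov kernel.  `law K p` is the law on `ℕ → Y` of the chain started at `p`.
A function `h : Y → ℝ` with `∫ h dK(q) = h q` gives a martingale `h (ω n)`.
This is the discrete substitute for Brownian motion in the case [c] of P097.
-/

open MeasureTheory ProbabilityTheory Filter Topology Finset Preorder

noncomputable section

set_option linter.unusedSectionVars false

namespace Vale.Agent.P097.H505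

variable {Y : Type*} [MeasurableSpace Y]

/-- transition kernels of the homogeneous chain -/
def kap (K : Kernel Y Y) (n : ℕ) : Kernel (Π _ : Iic n, Y) Y :=
  K.comap (fun x => x ⟨n, by simp⟩) (measurable_pi_apply _)

instance (K : Kernel Y Y) [IsMarkovKernel K] (n : ℕ) : IsMarkovKernel (kap K n) := by
  unfold kap; infer_instance

/-- law of the chain started at `p` -/
def law (K : Kernel Y Y) [IsMarkovKernel K] (p : Y) : Measure (ℕ → Y) :=
  Kernel.traj (X := fun _ => Y) (kap K) 0 (fun _ => p)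

instance (K : Kernel Y Y) [IsMarkovKernel K] (p : Y) : IsProbabilityMeasure (law K p) := by
  unfold law; infer_instance

/-- the canonical filtration -/
def filt (Y : Type*) [MeasurableSpace Y] : Filtration ℕ (MeasurableSpace.pi (X := fun _ : ℕ => Y)) :=
  Filtration.piLE (X := fun _ : ℕ => Y)

variable (K : Kernel Y Y) [IsMarkovKernel K] (p : Y)

lemma law_map_zero : (law K p).map (fun ω => ω 0) = Measure.dirac p := by
  have h1 : (law K p).map (frestrictLe (π := fun _ : ℕ => Y) 0)
      = Measure.dirac (fun _ : Iic 0 => p) := by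
    rw [law, Kernel.traj_map_frestrictLe_apply, Kernel.partialTraj_self, Kernel.id_apply]
  have h2 : (fun ω : ℕ → Y => ω 0)
      = (fun x : (Π _ : Iic 0, Y) => x ⟨0, by simp⟩) ∘ (frestrictLe (π := fun _ : ℕ => Y) 0) := rfl
  have h3 : Measurable (fun x : (Π _ : Iic 0, Y) => x ⟨0, by simp⟩) := measurable_pi_apply _
  have h4 : Measurable (frestrictLe (π := fun _ : ℕ => Y) 0) := measurable_frestrictLe _
  have h5 := Measure.map_map (μ := law K p) h3 h4
  rw [h2, ← h5, h1, Measure.map_dirac' h3]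

lemma ae_zero [MeasurableSingletonClass Y] : ∀ᵐ ω ∂(law K p), ω 0 = p := by
  have h : ∀ᵐ y ∂((law K p).map (fun ω => ω 0)), y = p := by
    rw [law_map_zero]
    exact (ae_dirac_iff (measurableSet_singleton p)).2 rfl
  exact ae_of_ae_map (measurable_pi_apply 0).aemeasurable h

/-- joint law of present and next state -/
lemma law_map_pair (n : ℕ) :
    (law K p).map (fun ω => (frestrictLe (π := fun _ : ℕ => Y) n ω, ω (n + 1)))
      = ((law K p).map (frestrictLe (π := fun _ : ℕ => Y) n)) ⊗ₘ (kap K n) := by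
  rw [law, Kernel.traj_map_frestrictLe_apply,
    Kernel.partialTraj_compProd_eq_map_traj (Nat.zero_le n)]

/-- an a.s. property of one step holds a.s. at all steps -/
lemma ae_step {P : Y → Y → Prop} (hP : MeasurableSet {q : Y × Y | P q.1 q.2})
    (h : ∀ q, ∀ᵐ y ∂(K q), P q y) : ∀ᵐ ω ∂(law K p), ∀ n, P (ω n) (ω (n + 1)) := by
  rw [ae_all_iff]
  intro n
  have hmeas : Measurable (fun ω : ℕ → Y =>
      (frestrictLe (π := fun _ : ℕ => Y) n ω, ω (n + 1))) := by fun_prop
  have hset : MeasurableSet {q : (Π _ : Iic n, Y) × Y | P (q.1 ⟨n, by simp⟩) q.2} := by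
    have : Measurable (fun q : (Π _ : Iic n, Y) × Y => ((q.1 ⟨n, by simp⟩ : Y), q.2)) := by
      fun_prop
    exact this hP
  have h1 : ∀ᵐ q ∂((law K p).map (fun ω => (frestrictLe (π := fun _ : ℕ => Y) n ω, ω (n + 1)))),
      P (q.1 ⟨n, by simp⟩) q.2 := by
    rw [law_map_pair, Measure.ae_compProd_iff hset]
    exact Eventually.of_forall fun x => h (x ⟨n, by simp⟩)
  exact ae_of_ae_map hmeas.aemeasurable h1

/-- `h` has the mean value property for the kernel `K`. -/
structure Harm (h : Y → ℝ) : Prop where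
  meas : Measurable h
  int : ∀ q, Integrable h (K q)
  mean : ∀ q, ∫ y, h y ∂(K q) = h q

variable {K p}

lemma Harm.condExp_eq {h : Y → ℝ} (hh : Harm K h) (n : ℕ)
    (hi : Integrable (fun ω : ℕ → Y => h (ω (n + 1))) (law K p)) :
    (law K p)[fun ω => h (ω (n + 1)) | filt Y n] =ᵐ[law K p] fun ω => h (ω n) := by
  have h1 := Kernel.condExp_traj (X := fun _ => Y) (κ := kap K) (Nat.zero_le n)
    (x₀ := fun _ => p) (f := fun ω : ℕ → Y => h (ω (n + 1))) hi
  refine h1.trans (Eventually.of_forall fun x => ?_)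
  have h2 : ((Kernel.traj (X := fun _ => Y) (kap K) n) (frestrictLe n x)).map
      (fun y : ℕ → Y => y (n + 1)) = K (x n) := by
    have h3 := Kernel.map_traj_succ_self (X := fun _ => Y) (κ := kap K) (a := n)
    have h4 := congrArg (fun κ' => κ' (frestrictLe n x)) h3
    rw [Kernel.map_apply _ (by fun_prop)] at h4
    rw [h4]
    rfl
  have h5 : ∫ y, h (y (n + 1)) ∂((Kernel.traj (X := fun _ => Y) (kap K) n) (frestrictLe n x))
      = ∫ y, h y ∂(K (x n)) := by
    rw [← h2, integral_map (measurable_pi_apply _).aemeasurable hh.meas.aestronglyMeasurable]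
  simpa [hh.mean] using h5

lemma Harm.martingale {h : Y → ℝ} (hh : Harm K h)
    (hi : ∀ n, Integrable (fun ω : ℕ → Y => h (ω n)) (law K p)) :
    Martingale (fun n ω => h (ω n)) (filt Y) (law K p) := by
  refine martingale_nat ?_ hi ?_
  · intro n
    have : Measurable[filt Y n] (fun ω : ℕ → Y => ω n) := by
      have h1 : (fun ω : ℕ → Y => ω n)
          = (fun x : (Π _ : Iic n, Y) => x ⟨n, by simp⟩) ∘ (frestrictLe (π := fun _ : ℕ => Y) n) :=
        rfl
      have h2 : Measurable[filt Y n] (frestrictLe (π := fun _ : ℕ => Y) n) := by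
        rw [filt, Filtration.piLE_eq_comap_frestrictLe]
        exact comap_measurable _
      rw [h1]
      exact (measurable_pi_apply _).comp h2
    exact (hh.meas.comp this).stronglyMeasurable
  · intro n
    exact (hh.condExp_eq n (hi (n + 1))).symm

/-- `h` is subharmonic for the kernel `K`. -/
structure SubHarm (K : Kernel Y Y) (h : Y → ℝ) : Prop where
  meas : Measurable h
  int : ∀ q, Integrable h (K q)
  mean : ∀ q, h q ≤ ∫ y, h y ∂(K q)

lemma Harm.sub {h : Y → ℝ} (hh : Harm K h) : SubHarm K h :=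
  ⟨hh.meas, hh.int, fun q => (hh.mean q).ge⟩

lemma Harm.neg {h : Y → ℝ} (hh : Harm K h) : Harm K (fun q => - h q) :=
  ⟨hh.meas.neg, fun q => (hh.int q).neg, fun q => by rw [integral_neg, hh.mean]⟩

lemma adapted_coord (n : ℕ) : Measurable[filt Y n] (fun ω : ℕ → Y => ω n) := by
  have h1 : (fun ω : ℕ → Y => ω n)
      = (fun x : (Π _ : Iic n, Y) => x ⟨n, by simp⟩) ∘ (frestrictLe (π := fun _ : ℕ => Y) n) :=
    rfl
  have h2 : Measurable[filt Y n] (frestrictLe (π := fun _ : ℕ => Y) n) := by
    rw [filt, Filtration.piLE_eq_comap_frestrictLe]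
    exact comap_measurable _
  rw [h1]
  exact (measurable_pi_apply _).comp h2

/-- conditional expectation of a function of the next state -/
lemma condExp_next {h : Y → ℝ} (hm : Measurable h) (n : ℕ)
    (hi : Integrable (fun ω : ℕ → Y => h (ω (n + 1))) (law K p)) :
    (law K p)[fun ω => h (ω (n + 1)) | filt Y n] =ᵐ[law K p]
      fun ω => ∫ y, h y ∂(K (ω n)) := by
  have h1 := Kernel.condExp_traj (X := fun _ => Y) (κ := kap K) (Nat.zero_le n)
    (x₀ := fun _ => p) (f := fun ω : ℕ → Y => h (ω (n + 1))) hi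
  refine h1.trans (Eventually.of_forall fun x => ?_)
  have h2 : ((Kernel.traj (X := fun _ => Y) (kap K) n) (frestrictLe n x)).map
      (fun y : ℕ → Y => y (n + 1)) = K (x n) := by
    have h3 := Kernel.map_traj_succ_self (X := fun _ => Y) (κ := kap K) (a := n)
    have h4 := congrArg (fun κ' => κ' (frestrictLe n x)) h3
    rw [Kernel.map_apply _ (by fun_prop)] at h4
    rw [h4]
    rfl
  have h5 : ∫ y, h (y (n + 1)) ∂((Kernel.traj (X := fun _ => Y) (kap K) n) (frestrictLe n x))
      = ∫ y, h y ∂(K (x n)) := by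
    rw [← h2, integral_map (measurable_pi_apply _).aemeasurable hm.aestronglyMeasurable]
  exact h5

lemma SubHarm.submartingale {h : Y → ℝ} (hh : SubHarm K h)
    (hi : ∀ n, Integrable (fun ω : ℕ → Y => h (ω n)) (law K p)) :
    Submartingale (fun n ω => h (ω n)) (filt Y) (law K p) := by
  refine submartingale_nat ?_ hi ?_
  · intro n
    exact (hh.meas.comp (adapted_coord n)).stronglyMeasurable
  · intro n
    filter_upwards [condExp_next hh.meas n (hi (n + 1))] with ω hω
    rw [hω]
    exact hh.mean _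

lemma integrable_of_bdd {h : Y → ℝ} (hm : Measurable h) {C : ℝ} (hC : ∀ q, |h q| ≤ C) (n : ℕ) :
    Integrable (fun ω : ℕ → Y => h (ω n)) (law K p) := by
  refine Integrable.mono' (integrable_const C)
    (hm.comp (measurable_pi_apply n)).aestronglyMeasurable ?_
  exact Eventually.of_forall fun ω => hC _

lemma integral_zero {h : Y → ℝ} (hm : Measurable h) : ∫ ω, h (ω 0) ∂(law K p) = h p := by
  have h1 : ∫ ω, h (ω 0) ∂(law K p) = ∫ y, h y ∂((law K p).map (fun ω => ω 0)) := by
    rw [integral_map (measurable_pi_apply _).aemeasurable hm.aestronglyMeasurable]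
  rw [h1, law_map_zero, integral_dirac' _ _ hm.stronglyMeasurable]

/-- (W1), subharmonic form: bounded subharmonic functions converge along the walk. -/
theorem SubHarm.converges {h : Y → ℝ} (hh : SubHarm K h) {C : ℝ} (hC : ∀ q, |h q| ≤ C) (p : Y) :
    ∃ L : (ℕ → Y) → ℝ, Measurable L ∧
      (∀ᵐ ω ∂(law K p), Tendsto (fun n => h (ω n)) atTop (𝓝 (L ω))) ∧
      (∀ᵐ ω ∂(law K p), |L ω| ≤ C) ∧ h p ≤ ∫ ω, L ω ∂(law K p) := by
  have hi := fun n => integrable_of_bdd (K := K) (p := p) hh.meas hC n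
  have hs := hh.submartingale hi
  have hC0 : 0 ≤ C := (abs_nonneg _).trans (hC p)
  have hbd : ∀ n, eLpNorm (fun ω : ℕ → Y => h (ω n)) 1 (law K p) ≤ (Real.toNNReal C : ENNReal) := by
    intro n
    have := eLpNorm_le_of_ae_bound (p := 1) (μ := law K p) (f := fun ω : ℕ → Y => h (ω n))
      (C := C) (Eventually.of_forall fun ω => hC _)
    have h2 : eLpNorm (fun ω : ℕ → Y => h (ω n)) 1 (law K p) ≤ ENNReal.ofReal C := by
      simpa using this
    exact h2
  have hlim := hs.ae_tendsto_limitProcess hbd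
  refine ⟨(filt Y).limitProcess (fun n ω => h (ω n)) (law K p), ?_, hlim, ?_, ?_⟩
  · have h1 := Filtration.stronglyMeasurable_limitProcess (f := fun n (ω : ℕ → Y) => h (ω n))
      (ℱ := filt Y) (μ := law K p)
    exact (h1.mono (sSup_le fun m ⟨n, hn⟩ => hn ▸ (filt Y).le n)).measurable
  · filter_upwards [hlim] with ω hω
    exact le_of_tendsto hω.abs (Eventually.of_forall fun n => hC _)
  · have h1 : Tendsto (fun n => ∫ ω, h (ω n) ∂(law K p)) atTop
        (𝓝 (∫ ω, (filt Y).limitProcess (fun n ω => h (ω n)) (law K p) ω ∂(law K p))) := by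
      refine tendsto_integral_of_dominated_convergence (fun _ => C)
        (fun n => (hi n).aestronglyMeasurable) (integrable_const C)
        (fun n => Eventually.of_forall fun ω => hC _) hlim
    refine ge_of_tendsto h1 (Eventually.of_forall fun n => ?_)
    have h2 := hs.setIntegral_le (Nat.zero_le n) (s := Set.univ) MeasurableSet.univ
    simp only [Measure.restrict_univ] at h2
    rwa [integral_zero hh.meas] at h2

/-- (W1): bounded harmonic functions converge along the walk, with the right mean. -/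
theorem Harm.converges {h : Y → ℝ} (hh : Harm K h) {C : ℝ} (hC : ∀ q, |h q| ≤ C) (p : Y) :
    ∃ L : (ℕ → Y) → ℝ, Measurable L ∧
      (∀ᵐ ω ∂(law K p), Tendsto (fun n => h (ω n)) atTop (𝓝 (L ω))) ∧
      (∀ᵐ ω ∂(law K p), |L ω| ≤ C) ∧ ∫ ω, L ω ∂(law K p) = h p := by
  obtain ⟨L, hLm, hL, hLC, hL1⟩ := hh.sub.converges hC p
  obtain ⟨L', hLm', hL', hLC', hL1'⟩ := hh.neg.sub.converges (C := C)
    (fun q => by rw [abs_neg]; exact hC q) p
  refine ⟨L, hLm, hL, hLC, le_antisymm ?_ hL1⟩
  have h1 : L' =ᵐ[law K p] fun ω => - L ω := by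
    filter_upwards [hL, hL'] with ω h1 h2
    exact tendsto_nhds_unique h2 h1.neg
  rw [integral_congr_ae h1, integral_neg] at hL1'
  linarith

/-- increments of `h` along the kernel are bounded by `R` -/
def BddInc (K : Kernel Y Y) (h : Y → ℝ) (R : ℝ) : Prop :=
  ∀ q, ∀ᵐ y ∂(K q), |h y - h q| ≤ R

lemma BddInc.ae_all {h : Y → ℝ} (hm : Measurable h) {R : ℝ} (hb : BddInc K h R) (p : Y) :
    ∀ᵐ ω ∂(law K p), ∀ n, |h (ω (n + 1)) - h (ω n)| ≤ R := by
  refine ae_step K p (P := fun q y => |h y - h q| ≤ R) ?_ hb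
  refine measurableSet_le ?_ measurable_const
  exact ((hm.comp measurable_snd).sub (hm.comp measurable_fst)).norm

lemma BddInc.integrable {h : Y → ℝ} (hm : Measurable h) {R : ℝ} (hb : BddInc K h R) (p : Y)
    (n : ℕ) : Integrable (fun ω : ℕ → Y => h (ω n)) (law K p) := by
  have h0 : ∀ᵐ ω ∂(law K p), h (ω 0) = h p := by
    have h1 : ∀ᵐ y ∂((law K p).map (fun ω => ω 0)), h y = h p := by
      rw [law_map_zero]
      exact (ae_dirac_iff (hm (measurableSet_singleton (h p)))).2 rfl
    exact ae_of_ae_map (measurable_pi_apply 0).aemeasurable h1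
  refine Integrable.mono' (integrable_const (|h p| + n * R))
    (hm.comp (measurable_pi_apply n)).aestronglyMeasurable ?_
  filter_upwards [h0, hb.ae_all hm p] with ω h0 h1
  rw [Real.norm_eq_abs]
  have h2 : ∀ m : ℕ, |h (ω m)| ≤ |h p| + m * R := by
    intro m
    induction m with
    | zero => simp [h0]
    | succ m ih =>
      have h3 := h1 m
      have h4 : |h (ω (m + 1))| ≤ |h (ω m)| + |h (ω (m + 1)) - h (ω m)| := by
        have := abs_add_le (h (ω m)) (h (ω (m + 1)) - h (ω m))
        simpa using this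
      push_cast
      linarith
  exact h2 n

lemma BddInc.ae_all' {h : Y → ℝ} (hm : Measurable h) {R : ℝ} (hb : BddInc K h R) (p : Y) :
    ∀ᵐ ω ∂(law K p), ∀ n : ℕ, |(fun (n : ℕ) (ω : ℕ → Y) => h (ω n)) (n + 1) ω
      - (fun (n : ℕ) (ω : ℕ → Y) => h (ω n)) n ω| ≤ ((Real.toNNReal R : NNReal) : ℝ) := by
  filter_upwards [hb.ae_all hm p] with ω hω n
  exact (hω n).trans (Real.le_coe_toNNReal R)

/-- (W3): a harmonic function with bounded increments does not tend to `-∞`. -/
theorem Harm.not_atBot {h : Y → ℝ} (hh : Harm K h) {R : ℝ} (hb : BddInc K h R) (p : Y) :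
    ∀ᵐ ω ∂(law K p), ¬ Tendsto (fun n => h (ω n)) atTop atBot := by
  have hm : Martingale (fun (n : ℕ) (ω : ℕ → Y) => h (ω n)) (filt Y) (law K p) :=
    hh.martingale (fun n => hb.integrable hh.meas p n)
  exact hm.ae_not_tendsto_atTop_atBot (hb.ae_all' hh.meas p)

/-- (W3): a harmonic function with bounded increments does not tend to `+∞`. -/
theorem Harm.not_atTop {h : Y → ℝ} (hh : Harm K h) {R : ℝ} (hb : BddInc K h R) (p : Y) :
    ∀ᵐ ω ∂(law K p), ¬ Tendsto (fun n => h (ω n)) atTop atTop := by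
  have hm : Martingale (fun (n : ℕ) (ω : ℕ → Y) => h (ω n)) (filt Y) (law K p) :=
    hh.martingale (fun n => hb.integrable hh.meas p n)
  exact hm.ae_not_tendsto_atTop_atTop (hb.ae_all' hh.meas p)

/-- (W3), dichotomy: bounded above iff bounded below, and then it converges. -/
theorem Harm.bdd_iff {h : Y → ℝ} (hh : Harm K h) {R : ℝ} (hb : BddInc K h R) (p : Y) :
    ∀ᵐ ω ∂(law K p), (BddAbove (Set.range fun n => h (ω n)) ↔
      BddBelow (Set.range fun n => h (ω n))) ∧
      (BddAbove (Set.range fun n => h (ω n)) ↔ ∃ c, Tendsto (fun n => h (ω n)) atTop (𝓝 c)) := by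
  have hm : Martingale (fun (n : ℕ) (ω : ℕ → Y) => h (ω n)) (filt Y) (law K p) :=
    hh.martingale (fun n => hb.integrable hh.meas p n)
  filter_upwards [hm.bddAbove_range_iff_bddBelow_range (hb.ae_all' hh.meas p),
    hm.submartingale.bddAbove_iff_exists_tendsto (hb.ae_all' hh.meas p)] with ω h1 h2
  exact ⟨h1, h2⟩

/-- a subharmonic function with bounded increments which is bounded above along the walk
converges there -/
theorem SubHarm.bdd_iff {h : Y → ℝ} (hh : SubHarm K h) {R : ℝ} (hb : BddInc K h R) (p : Y) :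
    ∀ᵐ ω ∂(law K p),
      (BddAbove (Set.range fun n => h (ω n)) ↔ ∃ c, Tendsto (fun n => h (ω n)) atTop (𝓝 c)) := by
  have hm : Submartingale (fun (n : ℕ) (ω : ℕ → Y) => h (ω n)) (filt Y) (law K p) :=
    hh.submartingale (fun n => hb.integrable hh.meas p n)
  exact hm.bddAbove_iff_exists_tendsto (hb.ae_all' hh.meas p)

/-- Escape from compacts (W2): `t` bounded with harmonic real and imaginary part, and every step
moves `t` by exactly `rad`; then `rad (ω n) → 0` a.s. -/
theorem rad_tendsto_zero {t : Y → ℂ} {rad : Y → ℝ}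
    (hre : Harm K (fun q => (t q).re)) (him : Harm K (fun q => (t q).im))
    {C : ℝ} (hC : ∀ q, ‖t q‖ ≤ C) (hrm : Measurable rad)
    (hr : ∀ q, ∀ᵐ y ∂(K q), rad q ≤ ‖t y - t q‖) (hr0 : ∀ q, 0 ≤ rad q) (p : Y) :
    ∀ᵐ ω ∂(law K p), Tendsto (fun n => rad (ω n)) atTop (𝓝 0) ∧
      ∃ c : ℂ, Tendsto (fun n => t (ω n)) atTop (𝓝 c) := by
  obtain ⟨L, -, hL, -, -⟩ := hre.converges (C := C) (fun q => (Complex.abs_re_le_norm _).trans (hC q)) p
  obtain ⟨L', -, hL', -, -⟩ := him.converges (C := C) (fun q => (Complex.abs_im_le_norm _).trans (hC q)) p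
  have htm : Measurable t := by
    have : t = fun q => ((t q).re : ℂ) + ((t q).im : ℂ) * Complex.I := by
      funext q; exact (Complex.re_add_im _).symm
    rw [this]
    exact ((Complex.measurable_ofReal.comp hre.meas).add
      ((Complex.measurable_ofReal.comp him.meas).mul_const _))
  have hstep : ∀ᵐ ω ∂(law K p), ∀ n, rad (ω n) ≤ ‖t (ω (n + 1)) - t (ω n)‖ := by
    refine ae_step K p (P := fun q y => rad q ≤ ‖t y - t q‖) ?_ hr
    exact measurableSet_le (hrm.comp measurable_fst)
      ((htm.comp measurable_snd).sub (htm.comp measurable_fst)).norm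
  filter_upwards [hL, hL', hstep] with ω h1 h2 h3
  have hc : Tendsto (fun n => t (ω n)) atTop (𝓝 ((L ω : ℂ) + (L' ω : ℂ) * Complex.I)) := by
    have h4 : Tendsto (fun n => (((t (ω n)).re : ℝ) : ℂ) + (((t (ω n)).im : ℝ) : ℂ) * Complex.I) atTop
        (𝓝 ((L ω : ℂ) + (L' ω : ℂ) * Complex.I)) :=
      ((Complex.continuous_ofReal.tendsto _).comp h1).add
        (((Complex.continuous_ofReal.tendsto _).comp h2).mul_const _)
    refine h4.congr fun n => ?_
    exact Complex.re_add_im _
  refine ⟨?_, _, hc⟩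
  have h5 : Tendsto (fun n => ‖t (ω (n + 1)) - t (ω n)‖) atTop (𝓝 0) := by
    have h6 := ((hc.comp (tendsto_add_atTop_nat 1)).sub hc).norm
    simpa using h6
  exact squeeze_zero (fun n => hr0 _) h3 h5

/-- Escape from compacts, topological form. -/
theorem escape [TopologicalSpace Y] {t : Y → ℂ} {rad : Y → ℝ}
    (hre : Harm K (fun q => (t q).re)) (him : Harm K (fun q => (t q).im))
    {C : ℝ} (hC : ∀ q, ‖t q‖ ≤ C) (hrm : Measurable rad) (hrc : Continuous rad)
    (hr : ∀ q, ∀ᵐ y ∂(K q), rad q ≤ ‖t y - t q‖) (hr0 : ∀ q, 0 < rad q) (p : Y) :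
    ∀ᵐ ω ∂(law K p), ∀ S : Set Y, IsCompact S → ∀ᶠ n in atTop, ω n ∉ S := by
  filter_upwards [rad_tendsto_zero hre him hC hrm hr (fun q => (hr0 q).le) p] with ω hω S hS
  rcases S.eq_empty_or_nonempty with rfl | hne
  · simp
  obtain ⟨q, hq, hmin⟩ := hS.exists_isMinOn hne hrc.continuousOn
  have h1 : ∀ᶠ n in atTop, rad (ω n) < rad q := (tendsto_order.1 hω.1).2 _ (hr0 q)
  filter_upwards [h1] with n hn hmem
  exact absurd (hmin hmem) (not_le.2 hn)

/-! ### kernels given by circle averages -/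

/-- the uniform law of an angle in `(0, 2π]` -/
def ang : Measure ℝ := ENNReal.ofReal (2 * Real.pi)⁻¹ • volume.restrict (Set.Ioc 0 (2 * Real.pi))

instance : IsProbabilityMeasure ang := by
  constructor
  have h : (0 : ℝ) < 2 * Real.pi := by positivity
  rw [ang, Measure.smul_apply, Measure.restrict_apply_univ, Real.volume_Ioc, smul_eq_mul, sub_zero,
    ← ENNReal.ofReal_mul (by positivity), inv_mul_cancel₀ h.ne', ENNReal.ofReal_one]

/-- kernel: from `q` jump to `sg q θ`, `θ` uniform -/
def circK (sg : Y → ℝ → Y) (_ : Measurable (fun q : Y × ℝ => sg q.1 q.2)) : Kernel Y Y :=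
  (Kernel.id ×ₖ Kernel.const Y ang).map (fun q : Y × ℝ => sg q.1 q.2)

instance (sg : Y → ℝ → Y) (hsg : Measurable (fun q : Y × ℝ => sg q.1 q.2)) :
    IsMarkovKernel (circK sg hsg) := by
  unfold circK
  exact Kernel.IsMarkovKernel.map _ hsg

lemma circK_apply (sg : Y → ℝ → Y) (hsg : Measurable (fun q : Y × ℝ => sg q.1 q.2)) (q : Y) :
    circK sg hsg q = ang.map (sg q) := by
  have h1 : Measurable (fun θ : ℝ => (q, θ)) := by fun_prop
  rw [circK, Kernel.map_apply _ hsg, Kernel.prod_apply, Kernel.id_apply, Kernel.const_apply,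
    Measure.dirac_prod, Measure.map_map hsg h1]
  rfl

lemma measurable_sg {sg : Y → ℝ → Y} (hsg : Measurable (fun q : Y × ℝ => sg q.1 q.2)) (q : Y) :
    Measurable (sg q) :=
  hsg.comp (by fun_prop : Measurable (fun θ : ℝ => (q, θ)))

lemma integral_circK (sg : Y → ℝ → Y) (hsg : Measurable (fun q : Y × ℝ => sg q.1 q.2)) {h : Y → ℝ}
    (hm : Measurable h) (q : Y) :
    ∫ y, h y ∂(circK sg hsg q) = (2 * Real.pi)⁻¹ * ∫ θ in (0 : ℝ)..(2 * Real.pi), h (sg q θ) := by
  rw [circK_apply, integral_map (measurable_sg hsg q).aemeasurable hm.aestronglyMeasurable, ang,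
    integral_smul_measure, intervalIntegral.integral_of_le (by positivity), smul_eq_mul,
    ENNReal.toReal_ofReal (by positivity)]

lemma ae_circK {sg : Y → ℝ → Y} (hsg : Measurable (fun q : Y × ℝ => sg q.1 q.2)) {P : Y → Prop}
    (hP : MeasurableSet {y | P y}) (q : Y) (h : ∀ θ, P (sg q θ)) : ∀ᵐ y ∂(circK sg hsg q), P y := by
  rw [circK_apply]
  exact (ae_map_iff (measurable_sg hsg q).aemeasurable hP).2 (Eventually.of_forall h)

/-- functions which are continuous on every circle and equal to their circle average are harmonic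
for `circK` -/
lemma harm_circK {sg : Y → ℝ → Y} (hsg : Measurable (fun q : Y × ℝ => sg q.1 q.2)) {h : Y → ℝ}
    (hm : Measurable h) (hi : ∀ q, IntervalIntegrable (fun θ => h (sg q θ)) volume 0 (2 * Real.pi))
    (hmean : ∀ q, (2 * Real.pi)⁻¹ * ∫ θ in (0 : ℝ)..(2 * Real.pi), h (sg q θ) = h q) :
    Harm (circK sg hsg) h := by
  refine ⟨hm, fun q => ?_, fun q => by rw [integral_circK sg hsg hm, hmean]⟩
  rw [circK_apply, integrable_map_measure hm.aestronglyMeasurable (measurable_sg hsg q).aemeasurable]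
  have h1 := (intervalIntegrable_iff_integrableOn_Ioc_of_le (by positivity)).1 (hi q)
  exact h1.smul_measure ENNReal.ofReal_ne_top

lemma subharm_circK {sg : Y → ℝ → Y} (hsg : Measurable (fun q : Y × ℝ => sg q.1 q.2)) {h : Y → ℝ}
    (hm : Measurable h) (hi : ∀ q, IntervalIntegrable (fun θ => h (sg q θ)) volume 0 (2 * Real.pi))
    (hmean : ∀ q, h q ≤ (2 * Real.pi)⁻¹ * ∫ θ in (0 : ℝ)..(2 * Real.pi), h (sg q θ)) :
    SubHarm (circK sg hsg) h := by
  refine ⟨hm, fun q => ?_, fun q => by rw [integral_circK sg hsg hm]; exact hmean q⟩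
  rw [circK_apply, integrable_map_measure hm.aestronglyMeasurable (measurable_sg hsg q).aemeasurable]
  have h1 := (intervalIntegrable_iff_integrableOn_Ioc_of_le (by positivity)).1 (hi q)
  exact h1.smul_measure ENNReal.ofReal_ne_top

/-- comparison: if `0 ≤ h` is bounded and superharmonic (`-h` subharmonic) and `h (ω n)` tends to a
limit `≥ 1` on an event `A`, then `P(A) ≤ h p`. -/
theorem prob_le_of_super {h : Y → ℝ} (hh : SubHarm K (fun q => - h q)) {C : ℝ}
    (h0 : ∀ q, 0 ≤ h q) (hC : ∀ q, h q ≤ C) (p : Y) {A : Set (ℕ → Y)} (hA : MeasurableSet A)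
    (hlim : ∀ᵐ ω ∂(law K p), ω ∈ A → ∀ c, Tendsto (fun n => h (ω n)) atTop (𝓝 c) → 1 ≤ c) :
    (law K p).real A ≤ h p := by
  obtain ⟨L, hLm, hL, hLC, hLp⟩ := hh.converges (C := C)
    (fun q => by rw [abs_neg, abs_of_nonneg (h0 q)]; exact hC q) p
  have h1 : ∀ᵐ ω ∂(law K p), Set.indicator A (fun _ => (1 : ℝ)) ω ≤ - L ω := by
    filter_upwards [hL, hlim] with ω h1 h2
    have h3 : Tendsto (fun n => h (ω n)) atTop (𝓝 (- L ω)) := by
      have := h1.neg
      simpa using this
    by_cases hω : ω ∈ A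
    · simpa [hω] using h2 hω _ h3
    · simp only [hω, not_false_eq_true, Set.indicator_of_notMem]
      exact ge_of_tendsto h3 (Eventually.of_forall fun n => h0 _)
  have hLi : Integrable L (law K p) := by
    refine Integrable.mono' (integrable_const C) hLm.aestronglyMeasurable ?_
    filter_upwards [hLC] with ω hω
    exact hω
  have h2 : ∫ ω, Set.indicator A (fun _ => (1 : ℝ)) ω ∂(law K p) ≤ ∫ ω, - L ω ∂(law K p) := by
    refine integral_mono_ae ?_ hLi.neg h1
    exact (integrable_const 1).indicator hA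
  rw [integral_indicator hA, integral_neg] at h2
  simp only [integral_const, smul_eq_mul, mul_one] at h2
  rw [measureReal_restrict_apply_univ] at h2
  linarith

end Vale.Agent.P097.H505
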